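import Vale.Agent.Lib.P157.HDefs

/-! P157: characteristic function and the convexity of the moments. -/

open MeasureTheory ProbabilityTheory Filter Topology

namespace Vale.Agent.Lib.P157

instance char_gauss_prob (n : ℕ) : IsProbabilityMeasure (gauss n) := by unfold gauss; infer_instance

theorem char_gauss {n : ℕ} (t : Fin n → ℝ) :
    ∫ g, Complex.exp (Complex.I * ((dot g t : ℝ) : ℂ)) ∂(gauss n) =
      ((Real.exp (-(∑ j, t j ^ 2) / 2) : ℝ) : ℂ) := by
  unfold gauss dot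
  have h1 : ∀ g : Fin n → ℝ, Complex.exp (Complex.I * ((∑ j, g j * t j : ℝ) : ℂ)) =
      ∏ j, Complex.exp ((t j : ℂ) * (g j : ℂ) * Complex.I) := by
    intro g
    rw [← Complex.exp_sum]
    congr 1
    push_cast
    rw [Finset.mul_sum]
    exact Finset.sum_congr rfl fun j _ => by ring
  simp only [h1]
  rw [integral_fintype_prod_eq_prod (fun (j : Fin n) (x : ℝ) =>
    Complex.exp ((t j : ℂ) * (x : ℂ) * Complex.I))]
  have h2 : ∀ j : Fin n, ∫ x : ℝ, Complex.exp ((t j : ℂ) * (x : ℂ) * Complex.I)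
      ∂(gaussianReal 0 1) = Complex.exp (-((t j : ℂ) ^ 2) / 2) := by
    intro j
    have := charFun_gaussianReal (μ := 0) (v := 1) (t j)
    rw [charFun_apply_real] at this
    rw [this]
    congr 1
    push_cast
    ring
  simp only [h2]
  rw [← Complex.exp_sum]
  push_cast
  congr 1
  rw [← Finset.sum_neg_distrib, Finset.sum_div]

theorem dot_meas {n : ℕ} (t : Fin n → ℝ) : Measurable fun g : Fin n → ℝ => dot g t := by
  unfold dot; fun_prop

theorem dot_add {n : ℕ} (g a b : Fin n → ℝ) : dot g (fun j => a j + b j) = dot g a + dot g b := by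
  unfold dot; rw [← Finset.sum_add_distrib]; exact Finset.sum_congr rfl fun j _ => by ring

theorem dot_smul {n : ℕ} (g a : Fin n → ℝ) (c : ℝ) : dot g (fun j => c * a j) = c * dot g a := by
  unfold dot; rw [Finset.mul_sum]; exact Finset.sum_congr rfl fun j _ => by ring

theorem exp_int {Ω : Type} [MeasurableSpace Ω] (μ : Measure Ω) [IsProbabilityMeasure μ]
    (y : Ω → ℝ) (hy : Measurable y) :
    Integrable (fun ω => Complex.exp (Complex.I * ((y ω : ℝ) : ℂ))) μ := by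
  refine Integrable.of_bound (C := 1) ?_ (Filter.Eventually.of_forall fun ω => ?_)
  · exact (by fun_prop : Measurable fun ω =>
      Complex.exp (Complex.I * ((y ω : ℝ) : ℂ))).aestronglyMeasurable
  · rw [mul_comm, Complex.norm_exp_ofReal_mul_I]

theorem cos_re {Ω : Type} [MeasurableSpace Ω] (μ : Measure Ω) [IsProbabilityMeasure μ]
    (y : Ω → ℝ) (hy : Measurable y) :
    ∫ ω, Real.cos (y ω) ∂μ = (∫ ω, Complex.exp (Complex.I * ((y ω : ℝ) : ℂ)) ∂μ).re := by
  have := Complex.reCLM.integral_comp_comm (exp_int μ y hy)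
  rw [← Complex.reCLM_apply, ← this]
  refine integral_congr_ae (Filter.Eventually.of_forall fun ω => ?_)
  show Real.cos (y ω) = (Complex.exp (Complex.I * ((y ω : ℝ) : ℂ))).re
  rw [mul_comm, Complex.exp_ofReal_mul_I_re]

theorem cos_gauss {n : ℕ} (t : Fin n → ℝ) :
    ∫ g, Real.cos (dot g t) ∂(gauss n) = Real.exp (-(∑ j, t j ^ 2) / 2) := by
  rw [cos_re _ _ (dot_meas t), char_gauss, Complex.ofReal_re]

theorem cos_gauss2 {n1 n2 : ℕ} (a : Fin n1 → ℝ) (b : Fin n2 → ℝ) :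
    ∫ G : (Fin n1 → ℝ) × (Fin n2 → ℝ), Real.cos (dot G.1 a + dot G.2 b)
      ∂((gauss n1).prod (gauss n2)) =
      Real.exp (-(∑ j, a j ^ 2) / 2) * Real.exp (-(∑ j, b j ^ 2) / 2) := by
  rw [cos_re _ (fun G : (Fin n1 → ℝ) × (Fin n2 → ℝ) => dot G.1 a + dot G.2 b)
    (((dot_meas a).comp measurable_fst).add ((dot_meas b).comp measurable_snd))]
  have h1 : ∀ G : (Fin n1 → ℝ) × (Fin n2 → ℝ),
      Complex.exp (Complex.I * ((dot G.1 a + dot G.2 b : ℝ) : ℂ)) =
      Complex.exp (Complex.I * ((dot G.1 a : ℝ) : ℂ)) *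
        Complex.exp (Complex.I * ((dot G.2 b : ℝ) : ℂ)) := by
    intro G
    rw [← Complex.exp_add]; push_cast; rw [mul_add]
  simp only [h1]
  rw [integral_prod_mul (fun g => Complex.exp (Complex.I * ((dot g a : ℝ) : ℂ)))
    (fun g => Complex.exp (Complex.I * ((dot g b : ℝ) : ℂ))), char_gauss, char_gauss,
    ← Complex.ofReal_mul, Complex.ofReal_re]

section step

variable {X : Type} [Fintype X] (w : X → ℝ) (ρ : Measure ℝ) [IsProbabilityMeasure ρ]
  {Ω : Type} [MeasurableSpace Ω]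

/-- the random positive definite sum -/
noncomputable def SS (y : X → Ω → ℝ) (ω : Ω) : ℝ := ∑ x, w x * ∫ θ, Real.cos (θ * y x ω) ∂ρ

theorem SS_meas (y : X → Ω → ℝ) (hy : ∀ x, Measurable (y x)) : Measurable (SS w ρ y) := by
  unfold SS
  refine Finset.measurable_fun_sum _ fun x _ => Measurable.const_mul ?_ _
  have h : Measurable fun q : Ω × ℝ => Real.cos (q.2 * y x q.1) :=
    Real.measurable_cos.comp (measurable_snd.mul ((hy x).comp measurable_fst))
  exact (h.stronglyMeasurable.integral_prod_right' (ν := ρ)).measurable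

theorem SS_bd (y : X → Ω → ℝ) (ω : Ω) : |SS w ρ y ω| ≤ ∑ x, |w x| := by
  unfold SS
  refine (Finset.abs_sum_le_sum_abs _ _).trans (Finset.sum_le_sum fun x _ => ?_)
  rw [abs_mul]
  have h := norm_integral_le_of_norm_le_const (μ := ρ) (f := fun θ => Real.cos (θ * y x ω))
    (C := 1) (Filter.Eventually.of_forall fun θ => by
      rw [Real.norm_eq_abs]; exact Real.abs_cos_le_one _)
  have h' : |∫ θ, Real.cos (θ * y x ω) ∂ρ| ≤ 1 := by simpa using h
  calc |w x| * |∫ θ, Real.cos (θ * y x ω) ∂ρ| ≤ |w x| * 1 :=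
        mul_le_mul_of_nonneg_left h' (abs_nonneg _)
    _ = |w x| := mul_one _

theorem char_term_bd (y : X → Ω → ℝ) (n : ℕ) (ω : Ω) (t : ℝ) :
    |SS w ρ y ω ^ n * Real.cos t| ≤ (∑ x, |w x|) ^ n := by
  rw [abs_mul, abs_pow]
  calc |SS w ρ y ω| ^ n * |Real.cos t| ≤ (∑ x, |w x|) ^ n * 1 :=
        mul_le_mul (pow_le_pow_left₀ (abs_nonneg _) (SS_bd w ρ y ω) n) (Real.abs_cos_le_one _)
          (abs_nonneg _) (pow_nonneg (Finset.sum_nonneg fun x _ => abs_nonneg _) n)
    _ = _ := mul_one _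

theorem char_bint {Ω' : Type} [MeasurableSpace Ω'] (μ : Measure Ω') [IsProbabilityMeasure μ]
    {h : Ω' → ℝ} (K : ℝ) (hh : Measurable h) (hK : ∀ z, |h z| ≤ K) : Integrable h μ :=
  Integrable.of_bound hh.aestronglyMeasurable K
    (Filter.Eventually.of_forall fun z => by rw [Real.norm_eq_abs]; exact hK z)

theorem char_babs {Ω' : Type} [MeasurableSpace Ω'] (μ : Measure Ω') [IsProbabilityMeasure μ]
    {h : Ω' → ℝ} (K : ℝ) (hK : ∀ z, |h z| ≤ K) : |∫ z, h z ∂μ| ≤ K := by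
  have := norm_integral_le_of_norm_le_const (μ := μ) (f := h) (C := K)
    (Filter.Eventually.of_forall fun z => by rw [Real.norm_eq_abs]; exact hK z)
  simpa using this

variable (μ : Measure Ω) [IsProbabilityMeasure μ]

/-- one of the terms of the expansion -/
theorem TT_int (y : X → Ω → ℝ) (hy : ∀ x, Measurable (y x)) (Y : Ω → ℝ) (hY : Measurable Y)
    (n : ℕ) (x : X) (s : ℝ) :
    Integrable (fun θ => ∫ ω, SS w ρ y ω ^ n * Real.cos (Y ω + s * θ * y x ω) ∂μ) ρ := by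
  have h : Measurable fun q : ℝ × Ω =>
      SS w ρ y q.2 ^ n * Real.cos (Y q.2 + s * q.1 * y x q.2) :=
    (((SS_meas w ρ y hy).comp measurable_snd).pow_const n).mul
      (Real.measurable_cos.comp ((hY.comp measurable_snd).add
        ((measurable_fst.const_mul s).mul ((hy x).comp measurable_snd))))
  exact char_bint ρ _ ((h.stronglyMeasurable.integral_prod_right' (ν := μ)).measurable)
    fun θ => char_babs μ _ fun ω => char_term_bd w ρ y n ω _

theorem char_step (y : X → Ω → ℝ) (hy : ∀ x, Measurable (y x)) (Y : Ω → ℝ) (hY : Measurable Y)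
    (n : ℕ) :
    ∫ ω, SS w ρ y ω ^ (n + 1) * Real.cos (Y ω) ∂μ =
      ∑ x, w x * ∫ θ, (1 / 2 * (∫ ω, SS w ρ y ω ^ n * Real.cos (Y ω + 1 * θ * y x ω) ∂μ) +
        1 / 2 * (∫ ω, SS w ρ y ω ^ n * Real.cos (Y ω + (-1) * θ * y x ω) ∂μ)) ∂ρ := by
  have mS := SS_meas w ρ y hy
  have mc : Measurable fun ω => SS w ρ y ω ^ n * Real.cos (Y ω) :=
    (mS.pow_const n).mul (Real.measurable_cos.comp hY)
  have hx : ∀ x, Measurable fun q : Ω × ℝ =>
      SS w ρ y q.1 ^ n * Real.cos (Y q.1) * Real.cos (q.2 * y x q.1) := fun x =>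
    (mc.comp measurable_fst).mul
      (Real.measurable_cos.comp (measurable_snd.mul ((hy x).comp measurable_fst)))
  have hb : ∀ x (ω : Ω) (θ : ℝ), |SS w ρ y ω ^ n * Real.cos (Y ω) * Real.cos (θ * y x ω)| ≤
      (∑ x, |w x|) ^ n := by
    intro x ω θ
    rw [abs_mul]
    calc |SS w ρ y ω ^ n * Real.cos (Y ω)| * |Real.cos (θ * y x ω)| ≤ (∑ x, |w x|) ^ n * 1 :=
        mul_le_mul (char_term_bd w ρ y n ω _) (Real.abs_cos_le_one _)
          (abs_nonneg _) (pow_nonneg (Finset.sum_nonneg fun x _ => abs_nonneg _) n)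
      _ = _ := mul_one _
  have e1 : ∀ ω, SS w ρ y ω ^ (n + 1) * Real.cos (Y ω) =
      ∑ x, w x * ∫ θ, SS w ρ y ω ^ n * Real.cos (Y ω) * Real.cos (θ * y x ω) ∂ρ := by
    intro ω
    rw [pow_succ]
    conv_lhs => rw [show SS w ρ y ω ^ n * SS w ρ y ω * Real.cos (Y ω) =
      (SS w ρ y ω ^ n * Real.cos (Y ω)) * SS w ρ y ω by ring]
    conv_lhs => arg 2; unfold SS
    rw [Finset.mul_sum]
    refine Finset.sum_congr rfl fun x _ => ?_
    rw [integral_const_mul]
    ring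
  simp only [e1]
  rw [integral_finsetSum _ fun x _ => ?_]
  · refine Finset.sum_congr rfl fun x _ => ?_
    rw [integral_const_mul]
    congr 1
    rw [integral_integral_swap (char_bint _ _ (hx x) fun q => hb x q.1 q.2)]
    refine integral_congr_ae (Filter.Eventually.of_forall fun θ => ?_)
    have m1 : ∀ s : ℝ, Integrable
        (fun ω => SS w ρ y ω ^ n * Real.cos (Y ω + s * θ * y x ω)) μ := fun s =>
      char_bint μ _ ((mS.pow_const n).mul (Real.measurable_cos.comp (hY.add ((hy x).const_mul _))))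
        fun ω => char_term_bd w ρ y n ω _
    show ∫ ω, SS w ρ y ω ^ n * Real.cos (Y ω) * Real.cos (θ * y x ω) ∂μ =
      1 / 2 * (∫ ω, SS w ρ y ω ^ n * Real.cos (Y ω + 1 * θ * y x ω) ∂μ) +
        1 / 2 * (∫ ω, SS w ρ y ω ^ n * Real.cos (Y ω + (-1) * θ * y x ω) ∂μ)
    rw [← integral_const_mul, ← integral_const_mul,
      ← integral_add ((m1 1).const_mul _) ((m1 (-1)).const_mul _)]
    refine integral_congr_ae (Filter.Eventually.of_forall fun ω => ?_)
    show SS w ρ y ω ^ n * Real.cos (Y ω) * Real.cos (θ * y x ω) =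
      1 / 2 * (SS w ρ y ω ^ n * Real.cos (Y ω + 1 * θ * y x ω)) +
      1 / 2 * (SS w ρ y ω ^ n * Real.cos (Y ω + (-1) * θ * y x ω))
    rw [Real.cos_add, Real.cos_add, show (1 : ℝ) * θ * y x ω = θ * y x ω by ring,
      show (-1 : ℝ) * θ * y x ω = -(θ * y x ω) by ring, Real.cos_neg, Real.sin_neg]
    ring
  · refine Integrable.const_mul ?_ _
    exact char_bint μ _ (((hx x).stronglyMeasurable.integral_prod_right' (ν := ρ)).measurable)
      fun ω => char_babs ρ _ fun θ => hb x ω θ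

end step

theorem char_comb (ρ : Measure ℝ) {A A' B B' C C' : ℝ → ℝ} (hA : Integrable A ρ)
    (hA' : Integrable A' ρ) (hB : Integrable B ρ) (hB' : Integrable B' ρ) (hC : Integrable C ρ)
    (hC' : Integrable C' ρ) (p q : ℝ) (h : ∀ θ, C θ ≤ p * A θ + q * B θ)
    (h' : ∀ θ, C' θ ≤ p * A' θ + q * B' θ) :
    ∫ θ, (1 / 2 * C θ + 1 / 2 * C' θ) ∂ρ ≤
      p * ∫ θ, (1 / 2 * A θ + 1 / 2 * A' θ) ∂ρ + q * ∫ θ, (1 / 2 * B θ + 1 / 2 * B' θ) ∂ρ := by
  have e : ∀ {D D' : ℝ → ℝ}, Integrable D ρ → Integrable D' ρ → ∀ r s : ℝ,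
      ∫ θ, (r * D θ + s * D' θ) ∂ρ = r * ∫ θ, D θ ∂ρ + s * ∫ θ, D' θ ∂ρ := by
    intro D D' hD hD' r s
    rw [integral_add (hD.const_mul r) (hD'.const_mul s), integral_const_mul, integral_const_mul]
  rw [e hC hC', e hA hA', e hB hB']
  have k1 : ∫ θ, C θ ∂ρ ≤ p * ∫ θ, A θ ∂ρ + q * ∫ θ, B θ ∂ρ := by
    rw [← e hA hB]
    exact integral_mono hC ((hA.const_mul p).add (hB.const_mul q)) h
  have k2 : ∫ θ, C' θ ∂ρ ≤ p * ∫ θ, A' θ ∂ρ + q * ∫ θ, B' θ ∂ρ := by
    rw [← e hA' hB']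
    exact integral_mono hC' ((hA'.const_mul p).add (hB'.const_mul q)) h'
  linarith

theorem pow_aux {X : Type} [Fintype X] {n1 n2 : ℕ} (u : X → Fin n1 → ℝ) (v : X → Fin n2 → ℝ)
    (ρ : Measure ℝ) [IsProbabilityMeasure ρ] (w : X → ℝ) (hw : ∀ x, 0 ≤ w x) {p : ℝ}
    (hp : 0 ≤ p) (hp1 : p ≤ 1) (n : ℕ) : ∀ (a : Fin n1 → ℝ) (b : Fin n2 → ℝ),
    ∫ G : (Fin n1 → ℝ) × (Fin n2 → ℝ), SS w ρ (fun x (G : (Fin n1 → ℝ) × (Fin n2 → ℝ)) =>
        Real.sqrt p * dot G.1 (u x) + Real.sqrt (1 - p) * dot G.2 (v x)) G ^ n *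
        Real.cos (Real.sqrt p * dot G.1 a + Real.sqrt (1 - p) * dot G.2 b)
        ∂((gauss n1).prod (gauss n2)) ≤
      p * ∫ g, SS w ρ (fun x g => dot g (u x)) g ^ n * Real.cos (dot g a) ∂(gauss n1) +
      (1 - p) * ∫ g, SS w ρ (fun x g => dot g (v x)) g ^ n * Real.cos (dot g b) ∂(gauss n2) := by
  have hq : 0 ≤ 1 - p := by linarith
  have my1 : ∀ x, Measurable fun g : Fin n1 → ℝ => dot g (u x) := fun x => dot_meas _
  have my2 : ∀ x, Measurable fun g : Fin n2 → ℝ => dot g (v x) := fun x => dot_meas _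
  have mY : ∀ (a : Fin n1 → ℝ) (b : Fin n2 → ℝ), Measurable
      fun G : (Fin n1 → ℝ) × (Fin n2 → ℝ) =>
        Real.sqrt p * dot G.1 a + Real.sqrt (1 - p) * dot G.2 b := fun a b =>
    (((dot_meas a).comp measurable_fst).const_mul _).add
      (((dot_meas b).comp measurable_snd).const_mul _)
  induction n with
  | zero =>
    intro a b
    simp only [pow_zero, one_mul]
    have e : ∀ G : (Fin n1 → ℝ) × (Fin n2 → ℝ), Real.sqrt p * dot G.1 a +
        Real.sqrt (1 - p) * dot G.2 b = dot G.1 (fun j => Real.sqrt p * a j) +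
          dot G.2 (fun j => Real.sqrt (1 - p) * b j) := fun G => by
      rw [dot_smul, dot_smul]
    simp only [e]
    rw [cos_gauss2, cos_gauss, cos_gauss, ← Real.exp_add]
    have e1 : -(∑ j, (Real.sqrt p * a j) ^ 2) / 2 = p * (-(∑ j, a j ^ 2) / 2) := by
      simp only [mul_pow, Real.sq_sqrt hp]
      rw [← Finset.mul_sum]; ring
    have e2 : -(∑ j, (Real.sqrt (1 - p) * b j) ^ 2) / 2 = (1 - p) * (-(∑ j, b j ^ 2) / 2) := by
      simp only [mul_pow, Real.sq_sqrt hq]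
      rw [← Finset.mul_sum]; ring
    rw [e1, e2]
    have := convexOn_exp.2 (Set.mem_univ (-(∑ j, a j ^ 2) / 2))
      (Set.mem_univ (-(∑ j, b j ^ 2) / 2)) hp hq (by ring)
    simpa only [smul_eq_mul] using this
  | succ n ih =>
    intro a b
    rw [char_step w ρ _ _ (fun x => mY (u x) (v x)) _ (mY a b) n,
      char_step w ρ _ _ my1 _ (dot_meas a) n, char_step w ρ _ _ my2 _ (dot_meas b) n]
    rw [Finset.mul_sum, Finset.mul_sum, ← Finset.sum_add_distrib]
    refine Finset.sum_le_sum fun x _ => ?_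
    have I1 := fun s => TT_int w ρ (gauss n1) _ my1 _ (dot_meas a) n x s
    have I2 := fun s => TT_int w ρ (gauss n2) _ my2 _ (dot_meas b) n x s
    have I0 := fun s => TT_int w ρ ((gauss n1).prod (gauss n2)) _ (fun x => mY (u x) (v x)) _
      (mY a b) n x s
    have key : ∀ s θ : ℝ,
        ∫ G : (Fin n1 → ℝ) × (Fin n2 → ℝ), SS w ρ (fun x (G : (Fin n1 → ℝ) × (Fin n2 → ℝ)) =>
          Real.sqrt p * dot G.1 (u x) + Real.sqrt (1 - p) * dot G.2 (v x)) G ^ n *
          Real.cos (Real.sqrt p * dot G.1 a + Real.sqrt (1 - p) * dot G.2 b + s * θ *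
            (Real.sqrt p * dot G.1 (u x) + Real.sqrt (1 - p) * dot G.2 (v x)))
          ∂((gauss n1).prod (gauss n2)) ≤
        p * (∫ g, SS w ρ (fun x g => dot g (u x)) g ^ n *
          Real.cos (dot g a + s * θ * dot g (u x)) ∂(gauss n1)) +
        (1 - p) * ∫ g, SS w ρ (fun x g => dot g (v x)) g ^ n *
          Real.cos (dot g b + s * θ * dot g (v x)) ∂(gauss n2) := by
      intro s θ
      have := ih (fun j => a j + s * θ * u x j) (fun j => b j + s * θ * v x j)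
      have d1 : ∀ g : Fin n1 → ℝ, dot g (fun j => a j + s * θ * u x j) =
          dot g a + s * θ * dot g (u x) := fun g => by
        rw [dot_add g a (fun j => s * θ * u x j), dot_smul]
      have d2 : ∀ g : Fin n2 → ℝ, dot g (fun j => b j + s * θ * v x j) =
          dot g b + s * θ * dot g (v x) := fun g => by
        rw [dot_add g b (fun j => s * θ * v x j), dot_smul]
      simp only [d1, d2] at this
      refine le_trans (le_of_eq ?_) this
      refine integral_congr_ae (Filter.Eventually.of_forall fun G => ?_)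
      show _ * Real.cos _ = _ * Real.cos _
      congr 2
      ring
    have e : ∀ c : ℝ, p * (w x * c) = w x * (p * c) := fun c => by ring
    have e' : ∀ c : ℝ, (1 - p) * (w x * c) = w x * ((1 - p) * c) := fun c => by ring
    rw [e, e', ← mul_add]
    refine mul_le_mul_of_nonneg_left ?_ (hw x)
    exact char_comb ρ (I1 1) (I1 (-1)) (I2 1) (I2 (-1)) (I0 1) (I0 (-1)) p (1 - p) (key 1) (key (-1))

theorem pow_convex {X : Type} [Fintype X] {n1 n2 : ℕ} (u : X → Fin n1 → ℝ) (v : X → Fin n2 → ℝ)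
    (ρ : Measure ℝ) [IsProbabilityMeasure ρ] (w : X → ℝ) (hw : ∀ x, 0 ≤ w x) {p : ℝ}
    (hp : 0 ≤ p) (hp1 : p ≤ 1) (n : ℕ) :
    ∫ G : (Fin n1 → ℝ) × (Fin n2 → ℝ), (∑ x, w x * ∫ θ, Real.cos (θ *
        (Real.sqrt p * dot G.1 (u x) + Real.sqrt (1 - p) * dot G.2 (v x))) ∂ρ) ^ n
        ∂((gauss n1).prod (gauss n2)) ≤
      p * ∫ g, (∑ x, w x * ∫ θ, Real.cos (θ * dot g (u x)) ∂ρ) ^ n ∂(gauss n1) +
      (1 - p) * ∫ g, (∑ x, w x * ∫ θ, Real.cos (θ * dot g (v x)) ∂ρ) ^ n ∂(gauss n2) := by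
  have h := pow_aux u v ρ w hw hp hp1 n (fun _ => 0) (fun _ => 0)
  have d : ∀ {k : ℕ} (g : Fin k → ℝ), dot g (fun _ => (0 : ℝ)) = 0 := fun g => by
    unfold dot; simp
  simp only [d, mul_zero, add_zero, Real.cos_zero, mul_one] at h
  exact h

end Vale.Agent.Lib.P157
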