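import Mathlib

/-! P157: the free energy of Gaussian perceptron models (Ising configuration space). -/

open MeasureTheory ProbabilityTheory Filter Topology

namespace Vale.Agent.Lib.P157

/-- the vector in `{-1,1}^N` of a configuration -/
def spin {N : ℕ} (σ : Fin N → Bool) (i : Fin N) : ℝ := if σ i then 1 else -1

/-- standard Gaussian measure on `ℝ^N` -/
noncomputable def gauss (N : ℕ) : Measure (Fin N → ℝ) := Measure.pi fun _ => gaussianReal 0 1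

/-- `g · x / √N`, `x = spin σ` -/
noncomputable def field {N : ℕ} (g : Fin N → ℝ) (σ : Fin N → Bool) : ℝ :=
  (∑ j, g j * spin σ j) / Real.sqrt N

/-- `log ∫ exp (∑_a f (g^a · x / √N)) dμ_N(x)`, `μ_N` uniform on `{-1,1}^N` -/
noncomputable def logZ {M N : ℕ} (f : ℝ → ℝ) (g : Fin M → Fin N → ℝ) : ℝ :=
  Real.log ((1 / 2) ^ N * ∑ σ : Fin N → Bool, Real.exp (∑ a, f (field (g a) σ)))

/-- expected pressure `E p_N(f)`, `M = ⌊α N⌋` independent standard Gaussian patterns in `ℝ^N` -/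
noncomputable def EP (α : ℝ) (f : ℝ → ℝ) (N : ℕ) : ℝ :=
  ∫ g : Fin ⌊α * N⌋₊ → Fin N → ℝ, 1 / N * logZ f g ∂(Measure.pi fun _ => gauss N)

/-- `e^f = c (1 - κ ∫ cos (θ h) dρ(θ))` with `c > 0`, `0 ≤ κ < 1` and a probability measure `ρ` -/
def Good (f : ℝ → ℝ) : Prop :=
  ∃ (c κ : ℝ) (ρ : Measure ℝ), 0 < c ∧ 0 ≤ κ ∧ κ < 1 ∧ IsProbabilityMeasure ρ ∧
    ∀ h, Real.exp (f h) = c * (1 - κ * ∫ θ, Real.cos (θ * h) ∂ρ)

end Vale.Agent.Lib.P157
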