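import Mathlib

/-! P157: real-analysis lemmas for the existence of the limit. -/

open Filter Topology Finset

namespace Vale.Agent.Lib.P157

/-- iteration of the hybrid step -/
theorem bin_iter {K : ℕ → ℕ → ℕ → ℝ} {p : ℝ} (hp : 0 ≤ p) (hp1 : p ≤ 1)
    (hstep : ∀ m k l, p * K m (k + 1) l + (1 - p) * K m k (l + 1) ≤ K (m + 1) k l) :
    ∀ m k l, ∑ j ∈ range (m + 1), (m.choose j : ℝ) * p ^ j * (1 - p) ^ (m - j) *
      K 0 (k + j) (l + (m - j)) ≤ K m k l := by
  intro m
  induction m with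
  | zero => intro k l; simp
  | succ m ih =>
    intro k l
    have h1 := mul_le_mul_of_nonneg_left (ih (k + 1) l) hp
    have h2 := mul_le_mul_of_nonneg_left (ih k (l + 1)) (sub_nonneg.2 hp1)
    refine le_trans ?_ (le_trans (add_le_add h1 h2) (hstep m k l))
    rw [mul_sum, mul_sum]
    apply le_of_eq
    rw [sum_range_succ' _ (m + 1)]
    have e1 : ∀ j ∈ range (m + 1), ((m + 1).choose (j + 1) : ℝ) * p ^ (j + 1) *
        (1 - p) ^ (m + 1 - (j + 1)) * K 0 (k + (j + 1)) (l + (m + 1 - (j + 1))) =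
        p * ((m.choose j : ℝ) * p ^ j * (1 - p) ^ (m - j) * K 0 (k + 1 + j) (l + (m - j))) +
        (m.choose (j + 1) : ℝ) * p ^ (j + 1) * (1 - p) ^ (m - j) *
          K 0 (k + (j + 1)) (l + (m - j)) := by
      intro j _
      rw [Nat.choose_succ_succ, Nat.add_sub_add_right, show k + 1 + j = k + (j + 1) by ring]
      push_cast
      ring
    rw [sum_congr rfl e1, sum_add_distrib, add_assoc]
    congr 1
    rw [sum_range_succ' (fun j => (1 - p) * ((m.choose j : ℝ) * p ^ j * (1 - p) ^ (m - j) *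
      K 0 (k + j) (l + 1 + (m - j)))) m, sum_range_succ]
    have e2 : ∀ j ∈ range m, (m.choose (j + 1) : ℝ) * p ^ (j + 1) * (1 - p) ^ (m - j) *
          K 0 (k + (j + 1)) (l + (m - j)) =
        (1 - p) * ((m.choose (j + 1) : ℝ) * p ^ (j + 1) * (1 - p) ^ (m - (j + 1)) *
          K 0 (k + (j + 1)) (l + 1 + (m - (j + 1)))) := by
      intro j hj
      have hj' := mem_range.1 hj
      have e3 : m - j = (m - (j + 1)) + 1 := by omega
      rw [show l + 1 + (m - (j + 1)) = l + (m - j) by omega, e3, pow_succ]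
      ring
    rw [sum_congr rfl e2]
    have e4 : (m.choose (m + 1) : ℝ) = 0 := by
      rw [Nat.choose_succ_self]; simp
    rw [e4]
    simp only [Nat.choose_zero_right, Nat.cast_one, pow_zero, Nat.sub_zero, mul_one,
      one_mul, zero_mul, add_zero]
    rw [show l + 1 + m = l + (m + 1) by ring, pow_succ]
    ring

theorem fek_iter {s : ℕ → ℝ} {C : ℝ} (h : ∀ m n, 1 ≤ m → m ≤ n → s m + s n - C * Real.sqrt m ≤ s (m + n))
    {k : ℕ} (hk : 1 ≤ k) (r : ℕ) (hr : k ≤ r) : ∀ j : ℕ, (j : ℝ) * (s k - C * Real.sqrt k) + s r ≤ s (j * k + r) := by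
  intro j
  induction j with
  | zero => simp
  | succ j ih =>
    have h1 := h k (j * k + r) hk (le_trans hr (Nat.le_add_left _ _))
    rw [show (j + 1) * k + r = k + (j * k + r) by ring]
    push_cast
    nlinarith

theorem fekete_err {s : ℕ → ℝ} {C B : ℝ} (hB : ∀ n, |s n| ≤ B * n)
    (h : ∀ m n, 1 ≤ m → m ≤ n → s m + s n - C * Real.sqrt m ≤ s (m + n)) :
    ∃ L, Tendsto (fun n => s n / n) atTop (𝓝 L) := by
  have hC0 : 0 ≤ B := by
    have := hB 1
    have h2 := abs_nonneg (s 1)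
    simp at this
    linarith
  -- bounded
  have hbd : ∀ n : ℕ, |s n / n| ≤ B := by
    intro n
    rcases Nat.eq_zero_or_pos n with rfl | hn
    · simpa using hC0
    · rw [abs_div, Nat.abs_cast, div_le_iff₀ (by exact_mod_cast hn)]
      exact hB n
  -- lower bound for the liminf
  have hlow : ∀ k : ℕ, 1 ≤ k → ∀ ε : ℝ, 0 < ε →
      ∀ᶠ n : ℕ in atTop, (s k - C * Real.sqrt k) / k - ε ≤ s n / n := by
    intro k hk ε hε
    set D := (s k - C * Real.sqrt k) with hD
    have hkR : (0 : ℝ) < k := by exact_mod_cast hk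
    set M := 2 * |D| + 2 * B * k with hM
    have hM0 : 0 ≤ M := by positivity
    filter_upwards [eventually_ge_atTop (k + 1 + ⌈M / ε⌉₊)] with n hn
    have hnk : k ≤ n := by omega
    obtain ⟨q, r, hr1, hr2, hqr⟩ : ∃ q r : ℕ, k ≤ r ∧ r < 2 * k ∧ n = q * k + r := by
      refine ⟨n / k - 1, n % k + k, by omega, ?_, ?_⟩
      · have := Nat.mod_lt n hk
        omega
      · have h1 := Nat.div_add_mod n k
        have h2 : 1 ≤ n / k := (Nat.one_le_div_iff hk).2 hnk
        obtain ⟨t, ht⟩ := Nat.exists_eq_add_of_le h2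
        rw [ht] at h1 ⊢
        rw [Nat.add_sub_cancel_left]
        nlinarith
    have h1 := fek_iter h hk r hr1 q
    rw [← hqr, ← hD] at h1
    have h2 := hB r
    have h3 := abs_le.1 h2
    have hrR : (r : ℝ) ≤ 2 * k := by exact_mod_cast hr2.le
    have hnR : (n : ℝ) = q * k + r := by rw [hqr]; push_cast; ring
    have hnpos : (0 : ℝ) < n := by
      have : 0 < n := by omega
      exact_mod_cast this
    have hMn : M ≤ ε * n := by
      have h4 : M / ε ≤ n := by
        refine le_trans (Nat.le_ceil _) ?_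
        exact_mod_cast (by omega : ⌈M / ε⌉₊ ≤ n)
      rw [div_le_iff₀ hε] at h4
      linarith
    rw [le_div_iff₀ hnpos]
    -- D / k * n = q D + D r / k
    have h5 : D / k * n = q * D + D * (r / k) := by
      rw [hnR]; field_simp
    have h6 : D * (r / k) ≤ 2 * |D| := by
      have h7 : (r : ℝ) / k ≤ 2 := by rw [div_le_iff₀ hkR]; linarith
      have h8 : 0 ≤ (r : ℝ) / k := by positivity
      calc D * (r / k) ≤ |D| * (r / k) := mul_le_mul_of_nonneg_right (le_abs_self D) h8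
        _ ≤ |D| * 2 := mul_le_mul_of_nonneg_left h7 (abs_nonneg D)
        _ = 2 * |D| := by ring
    have h9 : B * r ≤ 2 * B * k := by nlinarith
    rw [sub_mul, h5]
    nlinarith
  -- limsup
  set u : ℕ → ℝ := fun n => s n / n with hu
  have hbu : IsBoundedUnder (· ≤ ·) atTop u :=
    ⟨B, eventually_map.2 (Eventually.of_forall fun n => (abs_le.1 (hbd n)).2)⟩
  have hbl : IsBoundedUnder (· ≥ ·) atTop u :=
    ⟨-B, eventually_map.2 (Eventually.of_forall fun n => (abs_le.1 (hbd n)).1)⟩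
  refine ⟨limsup u atTop, tendsto_of_le_liminf_of_limsup_le ?_ le_rfl hbu hbl⟩
  by_contra hcon
  push Not at hcon
  set δ := (limsup u atTop - liminf u atTop) / 4 with hδ
  have hδ0 : 0 < δ := by rw [hδ]; linarith
  -- frequently s k / k is close to limsup
  have hfr : ∃ᶠ k : ℕ in atTop, limsup u atTop - δ < u k :=
    frequently_lt_of_lt_limsup (hbl.isCoboundedUnder_le) (by linarith)
  have hsq : ∀ᶠ k : ℕ in atTop, |C| * Real.sqrt k / k ≤ δ := by
    have h1 : Tendsto (fun k : ℕ => |C| / Real.sqrt k) atTop (𝓝 0) := by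
      refine Tendsto.div_atTop tendsto_const_nhds ?_
      exact Real.tendsto_sqrt_atTop.comp tendsto_natCast_atTop_atTop
    filter_upwards [h1.eventually (ge_mem_nhds hδ0), eventually_ge_atTop 1] with k hk hk1
    have hkR : (0 : ℝ) < k := by exact_mod_cast hk1
    have h2 : |C| * Real.sqrt k / k = |C| / Real.sqrt k := by
      rw [div_eq_div_iff hkR.ne' (Real.sqrt_pos.2 hkR).ne', mul_assoc, Real.mul_self_sqrt hkR.le]
    rw [h2]; exact hk
  obtain ⟨k, hk1, hk2, hk3⟩ := (hfr.and_eventually (hsq.and (eventually_ge_atTop 1))).exists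
  have h1 := hlow k hk3 δ hδ0
  have h2 : (s k - C * Real.sqrt k) / k - δ ≤ liminf u atTop :=
    le_liminf_of_le (hbu.isCoboundedUnder_ge) h1
  have hkR : (0 : ℝ) < k := by exact_mod_cast hk3
  have h3 : C * Real.sqrt k / k ≤ |C| * Real.sqrt k / k := by
    gcongr
    exact le_abs_self C
  rw [sub_div] at h2
  have h4 : u k = s k / k := rfl
  rw [h4] at hk1
  linarith

theorem bin_dev {p : ℝ} (hp : 0 ≤ p) (hp1 : p ≤ 1) (m : ℕ) :
    ∑ j ∈ range (m + 1), (m.choose j : ℝ) * p ^ j * (1 - p) ^ (m - j) * |(j : ℝ) - m * p| ≤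
      Real.sqrt (m * p * (1 - p)) := by
  have hw : ∀ j ∈ range (m + 1), 0 ≤ (m.choose j : ℝ) * p ^ j * (1 - p) ^ (m - j) := by
    intro j _
    have : 0 ≤ 1 - p := by linarith
    positivity
  have hsum : ∑ j ∈ range (m + 1), (m.choose j : ℝ) * p ^ j * (1 - p) ^ (m - j) = 1 := by
    have h1 := add_pow p (1 - p) m
    have h2 : (p + (1 - p)) ^ m = 1 := by rw [show p + (1 - p) = 1 by ring, one_pow]
    refine Eq.trans ?_ (h1.symm.trans h2)
    refine sum_congr rfl fun j _ => ?_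
    ring
  have hvar : ∑ j ∈ range (m + 1), (m.choose j : ℝ) * p ^ j * (1 - p) ^ (m - j) *
      ((j : ℝ) - m * p) ^ 2 = m * p * (1 - p) := by
    have h1 := congrArg (Polynomial.eval p) (bernsteinPolynomial.variance ℝ m)
    simp only [Polynomial.eval_finsetSum, bernsteinPolynomial, Polynomial.eval_mul,
      Polynomial.eval_pow, Polynomial.eval_sub, Polynomial.eval_X, Polynomial.eval_natCast,
      Polynomial.eval_one, nsmul_eq_mul] at h1
    rw [← h1]
    refine sum_congr rfl fun j _ => ?_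
    ring
  apply Real.le_sqrt_of_sq_le
  have hcs := sum_mul_sq_le_sq_mul_sq (range (m + 1))
    (fun j => Real.sqrt ((m.choose j : ℝ) * p ^ j * (1 - p) ^ (m - j)))
    (fun j => Real.sqrt ((m.choose j : ℝ) * p ^ j * (1 - p) ^ (m - j)) * |(j : ℝ) - m * p|)
  have e1 : ∑ j ∈ range (m + 1), Real.sqrt ((m.choose j : ℝ) * p ^ j * (1 - p) ^ (m - j)) *
      (Real.sqrt ((m.choose j : ℝ) * p ^ j * (1 - p) ^ (m - j)) * |(j : ℝ) - m * p|) =
      ∑ j ∈ range (m + 1), (m.choose j : ℝ) * p ^ j * (1 - p) ^ (m - j) * |(j : ℝ) - m * p| := by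
    refine sum_congr rfl fun j hj => ?_
    rw [← mul_assoc, Real.mul_self_sqrt (hw j hj)]
  have e2 : ∑ j ∈ range (m + 1), Real.sqrt ((m.choose j : ℝ) * p ^ j * (1 - p) ^ (m - j)) ^ 2 = 1 := by
    refine Eq.trans ?_ hsum
    refine sum_congr rfl fun j hj => Real.sq_sqrt (hw j hj)
  have e3 : ∑ j ∈ range (m + 1), (Real.sqrt ((m.choose j : ℝ) * p ^ j * (1 - p) ^ (m - j)) *
      |(j : ℝ) - m * p|) ^ 2 = m * p * (1 - p) := by
    rw [← hvar]
    refine sum_congr rfl fun j hj => ?_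
    rw [mul_pow, Real.sq_sqrt (hw j hj), sq_abs]
  rw [e1, e2, e3, one_mul] at hcs
  exact hcs

end Vale.Agent.Lib.P157
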