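import Vale.Agent.Lib.P157.Defs

/-! P157: auxiliary definitions for the interpolation. -/

open MeasureTheory ProbabilityTheory Filter Topology

namespace Vale.Agent.Lib.P157

/-- scalar product -/
def dot {n : ℕ} (g u : Fin n → ℝ) : ℝ := ∑ j, g j * u j

/-- hybrid log partition function: `m` global patterns, `k` patterns on the first block, `l` on the
second block; `u x`, `v x` are the two parts of the configuration `x` -/
noncomputable def hyb {X : Type} [Fintype X] {n1 n2 : ℕ} (f : ℝ → ℝ) (p : ℝ)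
    (u : X → Fin n1 → ℝ) (v : X → Fin n2 → ℝ) {m k l : ℕ}
    (G : Fin m → (Fin n1 → ℝ) × (Fin n2 → ℝ)) (A : Fin k → Fin n1 → ℝ) (B : Fin l → Fin n2 → ℝ) :
    ℝ :=
  Real.log (∑ x, Real.exp (∑ a, f (Real.sqrt p * dot (G a).1 (u x) +
    Real.sqrt (1 - p) * dot (G a).2 (v x)) + ∑ a, f (dot (A a) (u x)) + ∑ a, f (dot (B a) (v x))))

/-- expectation of the hybrid log partition function -/
noncomputable def KK {X : Type} [Fintype X] {n1 n2 : ℕ} (f : ℝ → ℝ) (p : ℝ)
    (u : X → Fin n1 → ℝ) (v : X → Fin n2 → ℝ) (m k l : ℕ) : ℝ :=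
  ∫ G : Fin m → (Fin n1 → ℝ) × (Fin n2 → ℝ), ∫ A : Fin k → Fin n1 → ℝ,
    ∫ B : Fin l → Fin n2 → ℝ, hyb f p u v G A B ∂(Measure.pi fun _ => gauss n2)
      ∂(Measure.pi fun _ => gauss n1) ∂(Measure.pi fun _ => (gauss n1).prod (gauss n2))

/-- expected log partition function with `m` patterns in dimension `N` (unnormalized) -/
noncomputable def aa (f : ℝ → ℝ) (m N : ℕ) : ℝ :=
  ∫ g : Fin m → Fin N → ℝ, Real.log (∑ σ : Fin N → Bool, Real.exp (∑ a, f (field (g a) σ)))
    ∂(Measure.pi fun _ => gauss N)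

/-- the two parts of a configuration, normalized -/
noncomputable def part1 (N1 N2 : ℕ) (x : (Fin N1 → Bool) × (Fin N2 → Bool)) : Fin N1 → ℝ :=
  fun j => spin x.1 j / Real.sqrt N1
noncomputable def part2 (N1 N2 : ℕ) (x : (Fin N1 → Bool) × (Fin N2 → Bool)) : Fin N2 → ℝ :=
  fun j => spin x.2 j / Real.sqrt N2

end Vale.Agent.Lib.P157
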