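import Vale.Agent.Lib.P157.HDefs

/-! P157 module HYB (second copy). -/

open MeasureTheory ProbabilityTheory Filter Topology

namespace Vale.Agent.Lib.P157

/-- bounded and measurable -/
def HYBB_BM {Z : Type*} [MeasurableSpace Z] (Φ : Z → ℝ) : Prop :=
  Measurable Φ ∧ ∃ C, ∀ z, |Φ z| ≤ C

theorem HYBB_BM.integrable {Z : Type*} [MeasurableSpace Z] {Φ : Z → ℝ} (h : HYBB_BM Φ)
    (μ : Measure Z) [IsProbabilityMeasure μ] : Integrable Φ μ := by
  obtain ⟨hm, C, hC⟩ := h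
  exact Integrable.of_bound hm.aestronglyMeasurable C (Eventually.of_forall hC)

theorem HYBB_BM.comp {Z Y : Type*} [MeasurableSpace Z] [MeasurableSpace Y] {Φ : Z → ℝ}
    (h : HYBB_BM Φ) {f : Y → Z} (hf : Measurable f) : HYBB_BM (fun y => Φ (f y)) :=
  ⟨h.1.comp hf, h.2.imp fun C hC y => hC (f y)⟩

theorem HYBB_BM.int {Z E : Type*} [MeasurableSpace Z] [MeasurableSpace E] {Φ : Z × E → ℝ}
    (h : HYBB_BM Φ) (μ : Measure E) [IsProbabilityMeasure μ] :
    HYBB_BM (fun z => ∫ e, Φ (z, e) ∂μ) := by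
  obtain ⟨hm, C, hC⟩ := h
  refine ⟨(hm.stronglyMeasurable.integral_prod_right' (ν := μ)).measurable, C, fun z => ?_⟩
  have h1 := norm_integral_le_of_norm_le_const (μ := μ) (f := fun e => Φ (z, e)) (C := C)
    (Eventually.of_forall fun e => hC (z, e))
  simpa using h1

theorem HYBB_swap {Z E : Type*} [MeasurableSpace Z] [MeasurableSpace E] {Φ : Z × E → ℝ}
    (h : HYBB_BM Φ) (ν : Measure Z) [IsProbabilityMeasure ν] (μ : Measure E)
    [IsProbabilityMeasure μ] :
    ∫ e, ∫ z, Φ (z, e) ∂ν ∂μ = ∫ z, ∫ e, Φ (z, e) ∂μ ∂ν := by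
  refine integral_integral_swap (f := fun e z => Φ (z, e)) ?_
  exact (h.comp measurable_swap).integrable (μ.prod ν)

theorem HYBB_meas_cons {E : Type*} [MeasurableSpace E] {m : ℕ} :
    Measurable (fun x : E × (Fin m → E) => (Fin.cons x.1 x.2 : Fin (m + 1) → E)) := by
  rw [measurable_pi_iff]
  intro i
  refine Fin.cases ?_ (fun j => ?_) i
  · simpa using measurable_fst
  · simp only [Fin.cons_succ]
    exact (measurable_pi_apply j).comp measurable_snd

theorem HYBB_cons {E : Type*} [MeasurableSpace E] (μ : Measure E) [IsProbabilityMeasure μ]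
    {m : ℕ} {H : (Fin (m + 1) → E) → ℝ} (hH : HYBB_BM H) :
    ∫ g, H g ∂(Measure.pi fun _ => μ) =
      ∫ G, ∫ e, H (Fin.cons e G) ∂μ ∂(Measure.pi fun _ : Fin m => μ) := by
  have h1 := (measurePreserving_piFinSuccAbove (fun _ : Fin (m + 1) => μ) 0).symm
  rw [← h1.integral_comp']
  have hcons : ∀ x : E × (Fin m → E),
      (MeasurableEquiv.piFinSuccAbove (fun _ : Fin (m + 1) => E) 0).symm x =
        Fin.cons x.1 x.2 := by
    intro x
    simp [MeasurableEquiv.piFinSuccAbove, Fin.insertNthEquiv, Fin.insertNth_zero']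
  simp only [hcons]
  have h2 : HYBB_BM (fun x : E × (Fin m → E) => H (Fin.cons x.1 x.2)) := hH.comp HYBB_meas_cons
  have h3 := integral_prod_symm _ (h2.integrable (μ.prod (Measure.pi fun _ : Fin m => μ)))
  exact h3

/-- three nested integrals of a bounded function -/
theorem HYBB_tri {Z1 Z2 Z3 : Type*} [MeasurableSpace Z1] [MeasurableSpace Z2] [MeasurableSpace Z3]
    (μ1 : Measure Z1) (μ2 : Measure Z2) (μ3 : Measure Z3) [IsProbabilityMeasure μ1]
    [IsProbabilityMeasure μ2] [IsProbabilityMeasure μ3] {Φ : Z1 × Z2 × Z3 → ℝ} (h : HYBB_BM Φ) :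
    ∫ x, ∫ y, ∫ z, Φ (x, y, z) ∂μ3 ∂μ2 ∂μ1 = ∫ w, Φ w ∂(μ1.prod (μ2.prod μ3)) := by
  rw [integral_prod _ (h.integrable _)]
  congr 1
  funext x
  have h1 : HYBB_BM (fun w : Z2 × Z3 => Φ (x, w)) := h.comp measurable_prodMk_left
  rw [integral_prod _ (h1.integrable _)]

section

variable {E1 E2 E3 : Type*} [MeasurableSpace E1] [MeasurableSpace E2] [MeasurableSpace E3]
  (μ1 : Measure E1) (μ2 : Measure E2) (μ3 : Measure E3) [IsProbabilityMeasure μ1]
    [IsProbabilityMeasure μ2] [IsProbabilityMeasure μ3]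

/-- third variable -/
theorem HYBB_step3 {m k l : ℕ} {Φ : (Fin m → E1) × (Fin k → E2) × (Fin (l + 1) → E3) → ℝ}
    (h : HYBB_BM Φ) :
    ∫ G, ∫ A, ∫ B, Φ (G, A, B) ∂(Measure.pi fun _ => μ3) ∂(Measure.pi fun _ => μ2)
      ∂(Measure.pi fun _ => μ1) =
    ∫ G, ∫ A, ∫ B, ∫ e, Φ (G, A, Fin.cons e B) ∂μ3 ∂(Measure.pi fun _ => μ3)
      ∂(Measure.pi fun _ => μ2) ∂(Measure.pi fun _ => μ1) := by
  congr 1
  funext G
  congr 1
  funext A
  refine HYBB_cons μ3 (H := fun B => Φ (G, A, B)) (h.comp ?_)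
  fun_prop

/-- second variable -/
theorem HYBB_step2 {m k l : ℕ} {Φ : (Fin m → E1) × (Fin (k + 1) → E2) × (Fin l → E3) → ℝ}
    (h : HYBB_BM Φ) :
    ∫ G, ∫ A, ∫ B, Φ (G, A, B) ∂(Measure.pi fun _ => μ3) ∂(Measure.pi fun _ => μ2)
      ∂(Measure.pi fun _ => μ1) =
    ∫ G, ∫ A, ∫ B, ∫ e, Φ (G, Fin.cons e A, B) ∂μ2 ∂(Measure.pi fun _ => μ3)
      ∂(Measure.pi fun _ => μ2) ∂(Measure.pi fun _ => μ1) := by
  congr 1
  funext G
  have h0 : HYBB_BM (fun w : (Fin (k + 1) → E2) × (Fin l → E3) => Φ (G, w)) :=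
    h.comp measurable_prodMk_left
  rw [HYBB_cons μ2 (H := fun A => ∫ B, Φ (G, A, B) ∂(Measure.pi fun _ => μ3)) (h0.int _)]
  congr 1
  funext A
  refine HYBB_swap (Φ := fun w : (Fin l → E3) × E2 => Φ (G, Fin.cons w.2 A, w.1)) (h.comp ?_)
    (Measure.pi fun _ => μ3) μ2
  have h1 : Measurable (fun w : (Fin l → E3) × E2 => (Fin.cons w.2 A : Fin (k + 1) → E2)) :=
    HYBB_meas_cons.comp (measurable_snd.prodMk measurable_const)
  exact measurable_const.prodMk (h1.prodMk measurable_fst)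

/-- first variable -/
theorem HYBB_step1 {m k l : ℕ} {Φ : (Fin (m + 1) → E1) × (Fin k → E2) × (Fin l → E3) → ℝ}
    (h : HYBB_BM Φ) :
    ∫ G, ∫ A, ∫ B, Φ (G, A, B) ∂(Measure.pi fun _ => μ3) ∂(Measure.pi fun _ => μ2)
      ∂(Measure.pi fun _ => μ1) =
    ∫ G, ∫ A, ∫ B, ∫ e, Φ (Fin.cons e G, A, B) ∂μ1 ∂(Measure.pi fun _ => μ3)
      ∂(Measure.pi fun _ => μ2) ∂(Measure.pi fun _ => μ1) := by
  have h1 : HYBB_BM (fun w : ((Fin (m + 1) → E1) × (Fin k → E2)) × (Fin l → E3) =>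
      Φ (w.1.1, w.1.2, w.2)) := h.comp (by fun_prop)
  have h2 := h1.int (Measure.pi fun _ : Fin l => μ3)
  have h3 := h2.int (Measure.pi fun _ : Fin k => μ2)
  rw [HYBB_cons μ1 (H := fun G => ∫ A, ∫ B, Φ (G, A, B) ∂(Measure.pi fun _ => μ3)
    ∂(Measure.pi fun _ => μ2)) h3]
  congr 1
  funext G
  have h4 : Measurable (fun e : E1 => (Fin.cons e G : Fin (m + 1) → E1)) :=
    HYBB_meas_cons.comp (measurable_id.prodMk measurable_const)
  rw [HYBB_swap (Φ := fun w : (Fin k → E2) × E1 =>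
    ∫ B, Φ (Fin.cons w.2 G, w.1, B) ∂(Measure.pi fun _ => μ3))
    (h2.comp (f := fun w : (Fin k → E2) × E1 =>
      ((Fin.cons w.2 G : Fin (m + 1) → E1), w.1))
      ((h4.comp measurable_snd).prodMk measurable_fst)) (Measure.pi fun _ => μ2) μ1]
  congr 1
  funext A
  refine HYBB_swap (Φ := fun w : (Fin l → E3) × E1 => Φ (Fin.cons w.2 G, A, w.1)) (h.comp ?_)
    (Measure.pi fun _ => μ3) μ1
  exact (h4.comp measurable_snd).prodMk (measurable_const.prodMk measurable_fst)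

end

/-! ### the hybrid partition function -/

theorem HYBB_meas_dot {n : ℕ} (u : Fin n → ℝ) : Measurable (fun g : Fin n → ℝ => dot g u) := by
  unfold dot
  exact Finset.measurable_sum _ fun j _ => (measurable_pi_apply j).mul_const _

section

variable {X : Type} [Fintype X] [Nonempty X] {n1 n2 : ℕ} {f : ℝ → ℝ}

theorem HYBB_bm (hf : Measurable f) {F : ℝ} (hF : ∀ h, |f h| ≤ F) (p : ℝ)
    (u : X → Fin n1 → ℝ) (v : X → Fin n2 → ℝ) (m k l : ℕ) :
    HYBB_BM (fun w : (Fin m → (Fin n1 → ℝ) × (Fin n2 → ℝ)) × (Fin k → Fin n1 → ℝ) ×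
      (Fin l → Fin n2 → ℝ) => hyb f p u v w.1 w.2.1 w.2.2) := by
  constructor
  · unfold hyb
    refine Real.measurable_log.comp ?_
    refine Finset.measurable_sum _ fun x _ => ?_
    refine Real.measurable_exp.comp ?_
    refine Measurable.add (Measurable.add ?_ ?_) ?_
    · refine Finset.measurable_sum _ fun a _ => ?_
      refine hf.comp ?_
      have h1 : Measurable (fun w : (Fin m → (Fin n1 → ℝ) × (Fin n2 → ℝ)) ×
          (Fin k → Fin n1 → ℝ) × (Fin l → Fin n2 → ℝ) => w.1 a) :=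
        (measurable_pi_apply a).comp measurable_fst
      exact (((HYBB_meas_dot (u x)).comp (measurable_fst.comp h1)).const_mul _).add
        (((HYBB_meas_dot (v x)).comp (measurable_snd.comp h1)).const_mul _)
    · refine Finset.measurable_sum _ fun a _ => ?_
      refine hf.comp ((HYBB_meas_dot (u x)).comp ?_)
      exact (measurable_pi_apply a).comp (measurable_fst.comp measurable_snd)
    · refine Finset.measurable_sum _ fun a _ => ?_
      refine hf.comp ((HYBB_meas_dot (v x)).comp ?_)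
      exact (measurable_pi_apply a).comp (measurable_snd.comp measurable_snd)
  · set K : ℝ := (m + k + l : ℝ) * F with hK
    refine ⟨Real.log (Fintype.card X) + K, ?_⟩
    rintro ⟨G, A, B⟩
    have hX : (1 : ℝ) ≤ Fintype.card X := by exact_mod_cast Fintype.card_pos
    have hX0 : 0 ≤ Real.log (Fintype.card X) := Real.log_nonneg hX
    have hb : ∀ x, |∑ a, f (Real.sqrt p * dot (G a).1 (u x) +
        Real.sqrt (1 - p) * dot (G a).2 (v x)) + ∑ a, f (dot (A a) (u x)) +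
        ∑ a, f (dot (B a) (v x))| ≤ K := by
      intro x
      have e1 : |∑ a, f (Real.sqrt p * dot (G a).1 (u x) +
          Real.sqrt (1 - p) * dot (G a).2 (v x))| ≤ m * F := by
        refine (Finset.abs_sum_le_sum_abs _ _).trans ?_
        refine (Finset.sum_le_sum fun a _ => hF _).trans ?_
        simp
      have e2 : |∑ a, f (dot (A a) (u x))| ≤ k * F := by
        refine (Finset.abs_sum_le_sum_abs _ _).trans ?_
        refine (Finset.sum_le_sum fun a _ => hF _).trans ?_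
        simp
      have e3 : |∑ a, f (dot (B a) (v x))| ≤ l * F := by
        refine (Finset.abs_sum_le_sum_abs _ _).trans ?_
        refine (Finset.sum_le_sum fun a _ => hF _).trans ?_
        simp
      refine (abs_add_le _ _).trans ?_
      have e4 := abs_add_le (∑ a, f (Real.sqrt p * dot (G a).1 (u x) +
        Real.sqrt (1 - p) * dot (G a).2 (v x))) (∑ a, f (dot (A a) (u x)))
      rw [hK]
      linarith
    simp only [hyb]
    set S : ℝ := ∑ x, Real.exp (∑ a, f (Real.sqrt p * dot (G a).1 (u x) +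
        Real.sqrt (1 - p) * dot (G a).2 (v x)) + ∑ a, f (dot (A a) (u x)) +
        ∑ a, f (dot (B a) (v x))) with hS
    have h1 : S ≤ Fintype.card X * Real.exp K := by
      rw [hS]
      refine (Finset.sum_le_sum fun x _ => Real.exp_le_exp.mpr (le_of_abs_le (hb x))).trans ?_
      simp
    have h2 : Real.exp (-K) ≤ S := by
      obtain ⟨x0⟩ := ‹Nonempty X›
      refine le_trans (Real.exp_le_exp.mpr (neg_le_of_abs_le (hb x0))) ?_
      exact Finset.single_le_sum (f := fun x => Real.exp (∑ a, f (Real.sqrt p * dot (G a).1 (u x) +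
        Real.sqrt (1 - p) * dot (G a).2 (v x)) + ∑ a, f (dot (A a) (u x)) +
        ∑ a, f (dot (B a) (v x)))) (fun x _ => (Real.exp_pos _).le) (Finset.mem_univ x0)
    have hS0 : 0 < S := (Real.exp_pos _).trans_le h2
    have h3 : Real.log S ≤ Real.log (Fintype.card X) + K := by
      have := Real.log_le_log hS0 h1
      rwa [Real.log_mul (by positivity) (Real.exp_pos _).ne', Real.log_exp] at this
    have h4 : -K ≤ Real.log S := by
      have := Real.log_le_log (Real.exp_pos _) h2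
      rwa [Real.log_exp] at this
    rw [abs_le]
    constructor <;> linarith

/-- the weight of the other patterns -/
noncomputable def HYBB_W (f : ℝ → ℝ) (p : ℝ) (u : X → Fin n1 → ℝ) (v : X → Fin n2 → ℝ)
    {m k l : ℕ} (G : Fin m → (Fin n1 → ℝ) × (Fin n2 → ℝ)) (A : Fin k → Fin n1 → ℝ)
    (B : Fin l → Fin n2 → ℝ) (x : X) : ℝ :=
  Real.exp (∑ a, f (Real.sqrt p * dot (G a).1 (u x) +
    Real.sqrt (1 - p) * dot (G a).2 (v x)) + ∑ a, f (dot (A a) (u x)) + ∑ a, f (dot (B a) (v x)))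

theorem HYBB_cons1 (p : ℝ) (u : X → Fin n1 → ℝ) (v : X → Fin n2 → ℝ)
    {m k l : ℕ} (G : Fin m → (Fin n1 → ℝ) × (Fin n2 → ℝ)) (A : Fin k → Fin n1 → ℝ)
    (B : Fin l → Fin n2 → ℝ) (e : (Fin n1 → ℝ) × (Fin n2 → ℝ)) :
    hyb f p u v (Fin.cons e G : Fin (m + 1) → (Fin n1 → ℝ) × (Fin n2 → ℝ)) A B =
      Real.log (∑ x, HYBB_W f p u v G A B x * Real.exp (f (Real.sqrt p * dot e.1 (u x) +
        Real.sqrt (1 - p) * dot e.2 (v x)))) := by
  unfold hyb HYBB_W
  congr 1
  refine Finset.sum_congr rfl fun x _ => ?_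
  rw [Fin.sum_univ_succ, ← Real.exp_add]
  simp only [Fin.cons_zero, Fin.cons_succ]
  congr 1
  ring

theorem HYBB_cons2 (p : ℝ) (u : X → Fin n1 → ℝ) (v : X → Fin n2 → ℝ)
    {m k l : ℕ} (G : Fin m → (Fin n1 → ℝ) × (Fin n2 → ℝ)) (A : Fin k → Fin n1 → ℝ)
    (B : Fin l → Fin n2 → ℝ) (e : Fin n1 → ℝ) :
    hyb f p u v G (Fin.cons e A : Fin (k + 1) → Fin n1 → ℝ) B =
      Real.log (∑ x, HYBB_W f p u v G A B x * Real.exp (f (dot e (u x)))) := by
  unfold hyb HYBB_W
  congr 1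
  refine Finset.sum_congr rfl fun x _ => ?_
  rw [Fin.sum_univ_succ (n := k), ← Real.exp_add]
  simp only [Fin.cons_zero, Fin.cons_succ]
  congr 1
  ring

theorem HYBB_cons3 (p : ℝ) (u : X → Fin n1 → ℝ) (v : X → Fin n2 → ℝ)
    {m k l : ℕ} (G : Fin m → (Fin n1 → ℝ) × (Fin n2 → ℝ)) (A : Fin k → Fin n1 → ℝ)
    (B : Fin l → Fin n2 → ℝ) (e : Fin n2 → ℝ) :
    hyb f p u v G A (Fin.cons e B : Fin (l + 1) → Fin n2 → ℝ) =
      Real.log (∑ x, HYBB_W f p u v G A B x * Real.exp (f (dot e (v x)))) := by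
  unfold hyb HYBB_W
  congr 1
  refine Finset.sum_congr rfl fun x _ => ?_
  rw [Fin.sum_univ_succ (n := l), ← Real.exp_add]
  simp only [Fin.cons_zero, Fin.cons_succ]
  congr 1
  ring

theorem HYBB_gauss_prob (n : ℕ) : IsProbabilityMeasure (gauss n) := by
  unfold gauss
  infer_instance

/-- `hyb_step` from the one pattern inequality -/
theorem hyb_step_b (hf : Measurable f) {F : ℝ} (hF : ∀ h, |f h| ≤ F)
    (u : X → Fin n1 → ℝ) (v : X → Fin n2 → ℝ) {p : ℝ}
    (hsingle : ∀ W : X → ℝ, (∀ x, 0 < W x) →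
      p * ∫ g, Real.log (∑ x, W x * Real.exp (f (dot g (u x)))) ∂(gauss n1) +
      (1 - p) * ∫ g, Real.log (∑ x, W x * Real.exp (f (dot g (v x)))) ∂(gauss n2) ≤
      ∫ G : (Fin n1 → ℝ) × (Fin n2 → ℝ), Real.log (∑ x, W x * Real.exp (f (Real.sqrt p *
        dot G.1 (u x) + Real.sqrt (1 - p) * dot G.2 (v x)))) ∂((gauss n1).prod (gauss n2)))
    (m k l : ℕ) :
    p * KK f p u v m (k + 1) l + (1 - p) * KK f p u v m k (l + 1) ≤ KK f p u v (m + 1) k l := by
  haveI := HYBB_gauss_prob n1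
  haveI := HYBB_gauss_prob n2
  have b1 := HYBB_bm hf hF p u v (m + 1) k l
  have b2 := HYBB_bm hf hF p u v m (k + 1) l
  have b3 := HYBB_bm hf hF p u v m k (l + 1)
  unfold KK
  rw [HYBB_step1 ((gauss n1).prod (gauss n2)) (gauss n1) (gauss n2) b1,
    HYBB_step2 ((gauss n1).prod (gauss n2)) (gauss n1) (gauss n2) b2,
    HYBB_step3 ((gauss n1).prod (gauss n2)) (gauss n1) (gauss n2) b3]
  have c1 := (b1.comp (f := fun w : ((Fin m → (Fin n1 → ℝ) × (Fin n2 → ℝ)) ×
      (Fin k → Fin n1 → ℝ) × (Fin l → Fin n2 → ℝ)) × ((Fin n1 → ℝ) × (Fin n2 → ℝ)) =>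
      ((Fin.cons w.2 w.1.1 : Fin (m + 1) → (Fin n1 → ℝ) × (Fin n2 → ℝ)), w.1.2.1, w.1.2.2))
    ((HYBB_meas_cons.comp (measurable_snd.prodMk (measurable_fst.comp measurable_fst))).prodMk
      (by fun_prop))).int ((gauss n1).prod (gauss n2))
  have c2 := (b2.comp (f := fun w : ((Fin m → (Fin n1 → ℝ) × (Fin n2 → ℝ)) ×
      (Fin k → Fin n1 → ℝ) × (Fin l → Fin n2 → ℝ)) × (Fin n1 → ℝ) =>
      (w.1.1, (Fin.cons w.2 w.1.2.1 : Fin (k + 1) → Fin n1 → ℝ), w.1.2.2))
    ((measurable_fst.comp measurable_fst).prodMk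
      ((HYBB_meas_cons.comp (measurable_snd.prodMk (by fun_prop))).prodMk
      (by fun_prop)))).int (gauss n1)
  have c3 := (b3.comp (f := fun w : ((Fin m → (Fin n1 → ℝ) × (Fin n2 → ℝ)) ×
      (Fin k → Fin n1 → ℝ) × (Fin l → Fin n2 → ℝ)) × (Fin n2 → ℝ) =>
      (w.1.1, w.1.2.1, (Fin.cons w.2 w.1.2.2 : Fin (l + 1) → Fin n2 → ℝ)))
    ((measurable_fst.comp measurable_fst).prodMk ((by fun_prop : Measurable _).prodMk
      (HYBB_meas_cons.comp (measurable_snd.prodMk (by fun_prop)))))).int (gauss n2)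
  have t1 := HYBB_tri (Measure.pi fun _ : Fin m => (gauss n1).prod (gauss n2))
    (Measure.pi fun _ : Fin k => gauss n1) (Measure.pi fun _ : Fin l => gauss n2) c1
  have t2 := HYBB_tri (Measure.pi fun _ : Fin m => (gauss n1).prod (gauss n2))
    (Measure.pi fun _ : Fin k => gauss n1) (Measure.pi fun _ : Fin l => gauss n2) c2
  have t3 := HYBB_tri (Measure.pi fun _ : Fin m => (gauss n1).prod (gauss n2))
    (Measure.pi fun _ : Fin k => gauss n1) (Measure.pi fun _ : Fin l => gauss n2) c3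
  simp only at t1 t2 t3 ⊢
  rw [t1, t2, t3]
  rw [← integral_const_mul, ← integral_const_mul, ← integral_add ((c2.integrable _).const_mul _)
    ((c3.integrable _).const_mul _)]
  refine integral_mono (((c2.integrable _).const_mul _).add ((c3.integrable _).const_mul _))
    (c1.integrable _) ?_
  rintro ⟨G, A, B⟩
  simp only [HYBB_cons1, HYBB_cons2, HYBB_cons3]
  exact hsingle _ fun x => Real.exp_pos _

end

end Vale.Agent.Lib.P157
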