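import Vale.Agent.Lib.P157.HDefs

/-! P157: regularity, Lipschitz dependence on the number of patterns, trivial bounds. -/

open MeasureTheory ProbabilityTheory Filter Topology

namespace Vale.Agent.Lib.P157

instance gauss_prob (N : ℕ) : IsProbabilityMeasure (gauss N) := by
  unfold gauss; infer_instance

/-- the cosine transform of a probability measure lies in `[-1, 1]` -/
theorem cosint_abs_le (ρ : Measure ℝ) [IsProbabilityMeasure ρ] (h : ℝ) :
    |∫ θ, Real.cos (θ * h) ∂ρ| ≤ 1 := by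
  have h1 := norm_integral_le_of_norm_le_const (μ := ρ) (f := fun θ => Real.cos (θ * h)) (C := 1)
    (Eventually.of_forall fun θ => by
      rw [Real.norm_eq_abs]; exact Real.abs_cos_le_one _)
  simpa using h1

/-- the cosine transform is continuous -/
theorem cosint_continuous (ρ : Measure ℝ) [IsProbabilityMeasure ρ] :
    Continuous fun h : ℝ => ∫ θ, Real.cos (θ * h) ∂ρ := by
  refine continuous_of_dominated (bound := fun _ => (1 : ℝ)) ?_ ?_ ?_ ?_
  · intro h
    exact (by fun_prop : Continuous fun θ : ℝ => Real.cos (θ * h)).aestronglyMeasurable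
  · intro h
    refine Eventually.of_forall fun θ => ?_
    rw [Real.norm_eq_abs]; exact Real.abs_cos_le_one _
  · exact integrable_const _
  · exact Eventually.of_forall fun θ => by fun_prop

theorem good_log {f : ℝ → ℝ} (hf : Good f) : ∃ (c κ : ℝ) (ρ : Measure ℝ), 0 < c ∧ 0 ≤ κ ∧ κ < 1 ∧
    IsProbabilityMeasure ρ ∧ ∀ h, f h = Real.log (c * (1 - κ * ∫ θ, Real.cos (θ * h) ∂ρ)) := by
  obtain ⟨c, κ, ρ, hc, h0, h1, hρ, h⟩ := hf
  exact ⟨c, κ, ρ, hc, h0, h1, hρ, fun x => by rw [← h x, Real.log_exp]⟩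

theorem good_bdd {f : ℝ → ℝ} (hf : Good f) : ∃ F, 0 ≤ F ∧ ∀ h, |f h| ≤ F := by
  obtain ⟨c, κ, ρ, hc, h0, h1, hρ, h⟩ := good_log hf
  refine ⟨|Real.log (c * (1 - κ))| + |Real.log (c * (1 + κ))|, by positivity, fun x => ?_⟩
  have hS := abs_le.mp (cosint_abs_le ρ x)
  have hlo : c * (1 - κ) ≤ c * (1 - κ * ∫ θ, Real.cos (θ * x) ∂ρ) := by
    refine mul_le_mul_of_nonneg_left ?_ hc.le
    nlinarith [hS.2]
  have hhi : c * (1 - κ * ∫ θ, Real.cos (θ * x) ∂ρ) ≤ c * (1 + κ) := by
    refine mul_le_mul_of_nonneg_left ?_ hc.le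
    nlinarith [hS.1]
  have hpos : 0 < c * (1 - κ) := mul_pos hc (by linarith)
  have l1 := Real.log_le_log hpos hlo
  have l2 := Real.log_le_log (hpos.trans_le hlo) hhi
  rw [h x]
  have a1 := neg_abs_le (Real.log (c * (1 - κ)))
  have a2 := le_abs_self (Real.log (c * (1 + κ)))
  have a3 := abs_nonneg (Real.log (c * (1 - κ)))
  have a4 := abs_nonneg (Real.log (c * (1 + κ)))
  rw [abs_le]
  constructor <;> linarith

theorem good_meas {f : ℝ → ℝ} (hf : Good f) : Measurable f := by
  obtain ⟨c, κ, ρ, hc, h0, h1, hρ, h⟩ := good_log hf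
  have : f = fun x => Real.log (c * (1 - κ * ∫ θ, Real.cos (θ * x) ∂ρ)) := funext h
  rw [this]
  refine Real.measurable_log.comp ?_
  exact (measurable_const.sub ((cosint_continuous ρ).measurable.const_mul κ)).const_mul c

/-! ### log partition functions -/

theorem measurable_field {N : ℕ} (σ : Fin N → Bool) : Measurable fun g : Fin N → ℝ => field g σ := by
  unfold field
  fun_prop

/-- the unnormalized log partition function -/
noncomputable def LZ (f : ℝ → ℝ) {m N : ℕ} (g : Fin m → Fin N → ℝ) : ℝ :=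
  Real.log (∑ σ : Fin N → Bool, Real.exp (∑ a, f (field (g a) σ)))

theorem LZ_meas {f : ℝ → ℝ} (hf : Measurable f) (m N : ℕ) :
    Measurable fun g : Fin m → Fin N → ℝ => LZ f g := by
  unfold LZ
  refine Real.measurable_log.comp ?_
  refine Finset.measurable_sum _ fun σ _ => ?_
  refine Real.measurable_exp.comp ?_
  refine Finset.measurable_sum _ fun a _ => ?_
  exact hf.comp ((measurable_field σ).comp (measurable_pi_apply a))

theorem sum_pos_exp {f : ℝ → ℝ} {m N : ℕ} (g : Fin m → Fin N → ℝ) :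
    0 < ∑ σ : Fin N → Bool, Real.exp (∑ a, f (field (g a) σ)) :=
  Finset.sum_pos (fun _ _ => Real.exp_pos _) Finset.univ_nonempty

theorem LZ_bound {f : ℝ → ℝ} {F : ℝ} (hF : ∀ h, |f h| ≤ F) {m N : ℕ} (g : Fin m → Fin N → ℝ) :
    |LZ f g - N * Real.log 2| ≤ F * m := by
  have hs : ∀ σ : Fin N → Bool, |∑ a, f (field (g a) σ)| ≤ F * m := fun σ => by
    refine (Finset.abs_sum_le_sum_abs _ _).trans ?_
    refine (Finset.sum_le_sum fun a _ => hF _).trans ?_
    simp [mul_comm]
  have hcard : (∑ _σ : Fin N → Bool, (1 : ℝ)) = 2 ^ N := by simp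
  have up : ∑ σ : Fin N → Bool, Real.exp (∑ a, f (field (g a) σ)) ≤ 2 ^ N * Real.exp (F * m) := by
    rw [← hcard, Finset.sum_mul]
    refine Finset.sum_le_sum fun σ _ => ?_
    rw [one_mul]
    exact Real.exp_le_exp.mpr (abs_le.mp (hs σ)).2
  have lo : 2 ^ N * Real.exp (-(F * m)) ≤ ∑ σ : Fin N → Bool, Real.exp (∑ a, f (field (g a) σ)) := by
    rw [← hcard, Finset.sum_mul]
    refine Finset.sum_le_sum fun σ _ => ?_
    rw [one_mul]
    exact Real.exp_le_exp.mpr (abs_le.mp (hs σ)).1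
  have h2 : (0 : ℝ) < 2 ^ N := by positivity
  have u := Real.log_le_log (sum_pos_exp g) up
  have l := Real.log_le_log (by positivity) lo
  rw [Real.log_mul h2.ne' (Real.exp_pos _).ne', Real.log_exp, Real.log_pow] at u l
  unfold LZ
  rw [abs_le]
  constructor <;> linarith

theorem LZ_abs {f : ℝ → ℝ} {F : ℝ} (hF : ∀ h, |f h| ≤ F) {m N : ℕ} (g : Fin m → Fin N → ℝ) :
    |LZ f g| ≤ F * m + N * Real.log 2 := by
  have h := LZ_bound hF g
  have h1 : LZ f g = (LZ f g - N * Real.log 2) + N * Real.log 2 := by ring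
  rw [h1]
  refine (abs_add_le _ _).trans ?_
  have : |(N : ℝ) * Real.log 2| = N * Real.log 2 :=
    abs_of_nonneg (mul_nonneg (Nat.cast_nonneg _) (Real.log_nonneg (by norm_num)))
  rw [this]
  linarith

theorem LZ_int {f : ℝ → ℝ} (hf : Measurable f) {F : ℝ} (hF : ∀ h, |f h| ≤ F) (m N : ℕ) :
    Integrable (fun g : Fin m → Fin N → ℝ => LZ f g) (Measure.pi fun _ => gauss N) :=
  Integrable.of_bound (LZ_meas hf m N).aestronglyMeasurable (F * m + N * Real.log 2)
    (Eventually.of_forall fun g => by rw [Real.norm_eq_abs]; exact LZ_abs hF g)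

/-- adding one pattern changes the log partition function by at most `F` -/
theorem LZ_cons {f : ℝ → ℝ} {F : ℝ} (hF : ∀ h, |f h| ≤ F) {m N : ℕ} (g0 : Fin N → ℝ)
    (g : Fin m → Fin N → ℝ) : |LZ f (Fin.cons g0 g : Fin (m + 1) → Fin N → ℝ) - LZ f g| ≤ F := by
  have e : ∀ σ : Fin N → Bool,
      ∑ a : Fin (m + 1), f (field ((Fin.cons g0 g : Fin (m + 1) → Fin N → ℝ) a) σ)
        = f (field g0 σ) + ∑ a, f (field (g a) σ) := fun σ => by
    rw [Fin.sum_univ_succ]; simp
  have up : ∑ σ : Fin N → Bool,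
      Real.exp (∑ a : Fin (m + 1), f (field ((Fin.cons g0 g : Fin (m + 1) → Fin N → ℝ) a) σ))
      ≤ Real.exp F * ∑ σ : Fin N → Bool, Real.exp (∑ a, f (field (g a) σ)) := by
    rw [Finset.mul_sum]
    refine Finset.sum_le_sum fun σ _ => ?_
    rw [e, Real.exp_add]
    exact mul_le_mul_of_nonneg_right (Real.exp_le_exp.mpr (abs_le.mp (hF _)).2) (Real.exp_pos _).le
  have lo : Real.exp (-F) * ∑ σ : Fin N → Bool, Real.exp (∑ a, f (field (g a) σ)) ≤
      ∑ σ : Fin N → Bool,
      Real.exp (∑ a : Fin (m + 1), f (field ((Fin.cons g0 g : Fin (m + 1) → Fin N → ℝ) a) σ)) := by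
    rw [Finset.mul_sum]
    refine Finset.sum_le_sum fun σ _ => ?_
    rw [e, Real.exp_add]
    exact mul_le_mul_of_nonneg_right (Real.exp_le_exp.mpr (abs_le.mp (hF _)).1) (Real.exp_pos _).le
  have hp := sum_pos_exp (f := f) g
  have u := Real.log_le_log (sum_pos_exp _) up
  have l := Real.log_le_log (mul_pos (Real.exp_pos _) hp) lo
  rw [Real.log_mul (Real.exp_pos _).ne' hp.ne', Real.log_exp] at u l
  unfold LZ
  rw [abs_le]
  constructor <;> linarith

theorem aa_eq (f : ℝ → ℝ) (m N : ℕ) :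
    aa f m N = ∫ g : Fin m → Fin N → ℝ, LZ f g ∂(Measure.pi fun _ => gauss N) := rfl

/-- Lipschitz in the number of patterns (`f` measurable, bounded by `F`) -/
theorem aa_succ {f : ℝ → ℝ} (hf : Measurable f) {F : ℝ} (hF : ∀ h, |f h| ≤ F) (m N : ℕ) :
    |aa f (m + 1) N - aa f m N| ≤ F := by
  have hmp := (measurePreserving_piFinSuccAbove (fun _ : Fin (m + 1) => gauss N) 0).symm
  have e1 : aa f (m + 1) N = ∫ x : (Fin N → ℝ) × (Fin m → Fin N → ℝ),
      LZ f (Fin.cons x.1 x.2 : Fin (m + 1) → Fin N → ℝ)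
        ∂((gauss N).prod (Measure.pi fun _ => gauss N)) := by
    rw [aa_eq, ← hmp.integral_comp' (g := fun g => LZ f g)]
    refine integral_congr_ae (Eventually.of_forall fun x => ?_)
    simp only [MeasurableEquiv.piFinSuccAbove]
    have : (Fin.insertNthEquiv (fun _ : Fin (m + 1) => Fin N → ℝ) 0) x
        = (Fin.cons x.1 x.2 : Fin (m + 1) → Fin N → ℝ) := by
      rw [Fin.insertNthEquiv_zero]; rfl
    exact congrArg (LZ f) this
  have e2 : aa f m N = ∫ x : (Fin N → ℝ) × (Fin m → Fin N → ℝ),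
      LZ f x.2 ∂((gauss N).prod (Measure.pi fun _ => gauss N)) := by
    have h := (measurePreserving_snd (μ := gauss N)
      (ν := Measure.pi fun _ : Fin m => gauss N))
    rw [aa_eq, ← h.map_eq, integral_map measurable_snd.aemeasurable
      ((h.map_eq.symm ▸ (LZ_meas hf m N).aestronglyMeasurable))]
    rw [h.map_eq]
  have hc : Measurable fun x : (Fin N → ℝ) × (Fin m → Fin N → ℝ) =>
      (Fin.cons x.1 x.2 : Fin (m + 1) → Fin N → ℝ) := by
    refine measurable_pi_lambda _ fun a => ?_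
    refine Fin.cases ?_ (fun b => ?_) a
    · simpa using measurable_fst
    · simp only [Fin.cons_succ]
      exact (measurable_pi_apply b).comp measurable_snd
  have i1 : Integrable (fun x : (Fin N → ℝ) × (Fin m → Fin N → ℝ) =>
      LZ f (Fin.cons x.1 x.2 : Fin (m + 1) → Fin N → ℝ))
      ((gauss N).prod (Measure.pi fun _ => gauss N)) :=
    Integrable.of_bound ((LZ_meas hf (m + 1) N).comp hc).aestronglyMeasurable
      (F * ((m + 1 : ℕ) : ℝ) + N * Real.log 2)
      (Eventually.of_forall fun g => by rw [Real.norm_eq_abs]; exact LZ_abs hF _)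
  have i2 : Integrable (fun x : (Fin N → ℝ) × (Fin m → Fin N → ℝ) => LZ f x.2)
      ((gauss N).prod (Measure.pi fun _ => gauss N)) :=
    Integrable.of_bound ((LZ_meas hf m N).comp measurable_snd).aestronglyMeasurable
      (F * m + N * Real.log 2)
      (Eventually.of_forall fun g => by rw [Real.norm_eq_abs]; exact LZ_abs hF _)
  rw [e1, e2, ← integral_sub i1 i2, ← Real.norm_eq_abs]
  have h := norm_integral_le_of_norm_le_const
    (μ := (gauss N).prod (Measure.pi fun _ : Fin m => gauss N))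
    (f := fun x : (Fin N → ℝ) × (Fin m → Fin N → ℝ) =>
      LZ f (Fin.cons x.1 x.2 : Fin (m + 1) → Fin N → ℝ) - LZ f x.2) (C := F)
    (Eventually.of_forall fun x => by
      rw [Real.norm_eq_abs]; exact LZ_cons hF x.1 x.2)
  simpa using h

theorem aa_bound {f : ℝ → ℝ} (hf : Measurable f) {F : ℝ} (hF : ∀ h, |f h| ≤ F) (m N : ℕ) :
    |aa f m N - N * Real.log 2| ≤ F * m := by
  have e : aa f m N - N * Real.log 2 = ∫ g : Fin m → Fin N → ℝ, (LZ f g - N * Real.log 2)
      ∂(Measure.pi fun _ => gauss N) := by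
    rw [integral_sub (LZ_int hf hF m N) (integrable_const _), aa_eq]
    simp
  rw [e, ← Real.norm_eq_abs]
  have h := norm_integral_le_of_norm_le_const
    (μ := (Measure.pi fun _ : Fin m => gauss N))
    (f := fun g : Fin m → Fin N → ℝ => LZ f g - N * Real.log 2) (C := F * m)
    (Eventually.of_forall fun x => by
      rw [Real.norm_eq_abs]; exact LZ_bound hF x)
  simpa using h

theorem EP_eq {f : ℝ → ℝ} (hf : Measurable f) {F : ℝ} (hF : ∀ h, |f h| ≤ F) (α : ℝ) (N : ℕ) :
    EP α f N = 1 / N * (aa f ⌊α * N⌋₊ N - N * Real.log 2) := by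
  have h1 : ∀ g : Fin ⌊α * N⌋₊ → Fin N → ℝ, logZ f g = LZ f g - N * Real.log 2 := fun g => by
    unfold logZ LZ
    rw [Real.log_mul (by positivity) (sum_pos_exp g).ne', Real.log_pow, one_div, Real.log_inv]
    ring
  unfold EP
  simp_rw [h1]
  rw [integral_const_mul, integral_sub (LZ_int hf hF _ N) (integrable_const _), aa_eq]
  simp

end Vale.Agent.Lib.P157
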