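import Vale.Agent.Lib.P157.Char

/-! P157: one-pattern inequality. -/

open MeasureTheory ProbabilityTheory Filter Topology

namespace Vale.Agent.Lib.P157

theorem si_series {Ω : Type*} [MeasurableSpace Ω] (μ : Measure Ω) [IsProbabilityMeasure μ]
    {S : Ω → ℝ} (hS : Measurable S) (hS1 : ∀ ω, |S ω| ≤ 1) {κ : ℝ} (hκ : 0 ≤ κ) (hκ1 : κ < 1) :
    HasSum (fun n : ℕ => κ ^ (n + 1) / (n + 1) * ∫ ω, S ω ^ (n + 1) ∂μ)
      (∫ ω, -Real.log (1 - κ * S ω) ∂μ) := by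
  have habs : ∀ ω, |κ * S ω| ≤ κ := by
    intro ω
    rw [abs_mul, abs_of_nonneg hκ]
    exact mul_le_of_le_one_right hκ (hS1 ω)
  have h := hasSum_integral_of_dominated_convergence (μ := μ)
    (F := fun (n : ℕ) ω => (κ * S ω) ^ (n + 1) / (n + 1)) (f := fun ω => -Real.log (1 - κ * S ω))
    (fun n _ => κ ^ (n + 1))
    (fun n => (((hS.const_mul κ).pow_const (n + 1)).div_const _).aestronglyMeasurable)
    (fun n => Filter.Eventually.of_forall fun ω => by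
      rw [Real.norm_eq_abs, abs_div, abs_pow]
      have h1 : (1:ℝ) ≤ |(n:ℝ) + 1| := by
        rw [abs_of_nonneg (by positivity)]
        linarith [Nat.cast_nonneg (α := ℝ) n]
      calc |κ * S ω| ^ (n + 1) / |(n:ℝ) + 1| ≤ |κ * S ω| ^ (n + 1) :=
            div_le_self (by positivity) h1
        _ ≤ κ ^ (n + 1) := pow_le_pow_left₀ (abs_nonneg _) (habs ω) _)
    (Filter.Eventually.of_forall fun ω =>
      (summable_nat_add_iff 1).2 (summable_geometric_of_lt_one hκ hκ1))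
    (integrable_const _)
    (Filter.Eventually.of_forall fun ω =>
      Real.hasSum_pow_div_log_of_abs_lt_one (lt_of_le_of_lt (habs ω) hκ1))
  have h2 : (fun n : ℕ => ∫ ω, (κ * S ω) ^ (n + 1) / (n + 1) ∂μ) =
      fun n : ℕ => κ ^ (n + 1) / (n + 1) * ∫ ω, S ω ^ (n + 1) ∂μ := by
    funext n
    rw [← integral_const_mul]
    refine integral_congr_ae (Filter.Eventually.of_forall fun ω => ?_)
    dsimp only
    rw [mul_pow]; ring
  rw [h2] at h
  exact h

theorem si_abs {Ω1 Ω2 Ω3 : Type*} [MeasurableSpace Ω1] [MeasurableSpace Ω2] [MeasurableSpace Ω3]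
    (μ1 : Measure Ω1) [IsProbabilityMeasure μ1] (μ2 : Measure Ω2) [IsProbabilityMeasure μ2]
    (μ3 : Measure Ω3) [IsProbabilityMeasure μ3]
    {S1 : Ω1 → ℝ} (h1 : Measurable S1) (b1 : ∀ ω, |S1 ω| ≤ 1)
    {S2 : Ω2 → ℝ} (h2 : Measurable S2) (b2 : ∀ ω, |S2 ω| ≤ 1)
    {S3 : Ω3 → ℝ} (h3 : Measurable S3) (b3 : ∀ ω, |S3 ω| ≤ 1)
    {κ p : ℝ} (hκ : 0 ≤ κ) (hκ1 : κ < 1)
    (hn : ∀ n : ℕ, ∫ ω, S3 ω ^ n ∂μ3 ≤ p * ∫ ω, S1 ω ^ n ∂μ1 + (1 - p) * ∫ ω, S2 ω ^ n ∂μ2) :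
    p * ∫ ω, Real.log (1 - κ * S1 ω) ∂μ1 + (1 - p) * ∫ ω, Real.log (1 - κ * S2 ω) ∂μ2 ≤
      ∫ ω, Real.log (1 - κ * S3 ω) ∂μ3 := by
  have e1 := (si_series μ1 h1 b1 hκ hκ1).mul_left p
  have e2 := (si_series μ2 h2 b2 hκ hκ1).mul_left (1 - p)
  have e3 := si_series μ3 h3 b3 hκ hκ1
  have h := hasSum_le (fun n => ?_) e3 (e1.add e2)
  · rw [integral_neg, integral_neg, integral_neg] at h
    linarith
  · have h4 := mul_le_mul_of_nonneg_left (hn (n + 1))
      (by positivity : 0 ≤ κ ^ (n + 1) / ((n:ℝ) + 1))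
    refine h4.trans (le_of_eq ?_)
    ring

theorem si_phi_meas (ρ : Measure ℝ) [IsProbabilityMeasure ρ] :
    Measurable fun h : ℝ => ∫ θ, Real.cos (θ * h) ∂ρ := by
  have h : StronglyMeasurable (fun q : ℝ × ℝ => Real.cos (q.2 * q.1)) := by
    apply Continuous.stronglyMeasurable
    fun_prop
  exact h.integral_prod_right.measurable

theorem si_phi_abs (ρ : Measure ℝ) [IsProbabilityMeasure ρ] (h : ℝ) :
    |∫ θ, Real.cos (θ * h) ∂ρ| ≤ 1 := by
  have h1 := norm_integral_le_of_norm_le_const (μ := ρ) (C := 1)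
    (f := fun θ => Real.cos (θ * h))
    (Filter.Eventually.of_forall fun θ => by
      rw [Real.norm_eq_abs]; exact Real.abs_cos_le_one _)
  simpa using h1

theorem si_S_abs {X : Type} [Fintype X] (w : X → ℝ) (hw : ∀ x, 0 ≤ w x) (hw1 : ∑ x, w x = 1)
    (ρ : Measure ℝ) [IsProbabilityMeasure ρ] (h : X → ℝ) :
    |∑ x, w x * ∫ θ, Real.cos (θ * h x) ∂ρ| ≤ 1 := by
  calc |∑ x, w x * ∫ θ, Real.cos (θ * h x) ∂ρ|
      ≤ ∑ x, |w x * ∫ θ, Real.cos (θ * h x) ∂ρ| := Finset.abs_sum_le_sum_abs _ _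
    _ ≤ ∑ x, w x := Finset.sum_le_sum fun x _ => by
        rw [abs_mul, abs_of_nonneg (hw x)]
        exact mul_le_of_le_one_right (hw x) (si_phi_abs ρ _)
    _ = 1 := hw1

theorem si_log {X : Type} [Fintype X] [Nonempty X] (W : X → ℝ) (hW : ∀ x, 0 < W x) {f : ℝ → ℝ}
    {c κ : ℝ} {ρ : Measure ℝ} (hc : 0 < c) (hκ : 0 ≤ κ) (hκ1 : κ < 1) [IsProbabilityMeasure ρ]
    (hf : ∀ h, Real.exp (f h) = c * (1 - κ * ∫ θ, Real.cos (θ * h) ∂ρ)) (h : X → ℝ) :
    Real.log (∑ x, W x * Real.exp (f (h x))) = Real.log (c * ∑ x, W x) +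
      Real.log (1 - κ * ∑ x, W x / (∑ x, W x) * ∫ θ, Real.cos (θ * h x) ∂ρ) := by
  have hT : 0 < ∑ x, W x := Finset.sum_pos (fun x _ => hW x) Finset.univ_nonempty
  have hS := si_S_abs (fun x => W x / ∑ x, W x) (fun x => (div_pos (hW x) hT).le)
    (by rw [← Finset.sum_div]; exact div_self hT.ne') ρ h
  have hpos : 0 < 1 - κ * ∑ x, W x / (∑ x, W x) * ∫ θ, Real.cos (θ * h x) ∂ρ := by
    have h1 := (abs_le.1 hS).2
    have h2 := mul_le_mul_of_nonneg_left h1 hκ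
    linarith
  rw [← Real.log_mul (by positivity) hpos.ne']
  congr 1
  have h3 : ∀ x, W x * Real.exp (f (h x)) = c * (W x - κ * (W x * ∫ θ, Real.cos (θ * h x) ∂ρ)) := by
    intro x; rw [hf]; ring
  rw [Finset.sum_congr rfl fun x _ => h3 x, ← Finset.mul_sum, Finset.sum_sub_distrib,
    ← Finset.mul_sum]
  have h4 : ∑ x, W x / (∑ x, W x) * ∫ θ, Real.cos (θ * h x) ∂ρ =
      (∑ x, W x * ∫ θ, Real.cos (θ * h x) ∂ρ) / ∑ x, W x := by
    rw [Finset.sum_div]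
    exact Finset.sum_congr rfl fun x _ => by ring
  rw [h4]
  field_simp

theorem si_int {Ω : Type*} [MeasurableSpace Ω] (μ : Measure Ω) [IsProbabilityMeasure μ]
    {X : Type} [Fintype X] [Nonempty X] (W : X → ℝ) (hW : ∀ x, 0 < W x) {f : ℝ → ℝ}
    {c κ : ℝ} {ρ : Measure ℝ} (hc : 0 < c) (hκ : 0 ≤ κ) (hκ1 : κ < 1) [IsProbabilityMeasure ρ]
    (hf : ∀ h, Real.exp (f h) = c * (1 - κ * ∫ θ, Real.cos (θ * h) ∂ρ)) (h : X → Ω → ℝ)
    (hh : ∀ x, Measurable (h x)) :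
    ∫ ω, Real.log (∑ x, W x * Real.exp (f (h x ω))) ∂μ = Real.log (c * ∑ x, W x) +
      ∫ ω, Real.log (1 - κ * ∑ x, W x / (∑ x, W x) * ∫ θ, Real.cos (θ * h x ω) ∂ρ) ∂μ := by
  have hT : 0 < ∑ x, W x := Finset.sum_pos (fun x _ => hW x) Finset.univ_nonempty
  have e : ∀ ω, Real.log (∑ x, W x * Real.exp (f (h x ω))) = Real.log (c * ∑ x, W x) +
      Real.log (1 - κ * ∑ x, W x / (∑ x, W x) * ∫ θ, Real.cos (θ * h x ω) ∂ρ) := fun ω =>
    si_log W hW hc hκ hκ1 hf fun x => h x ω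
  rw [integral_congr_ae (Filter.Eventually.of_forall e), integral_add (integrable_const _)]
  · simp
  · have hm : Measurable fun ω => Real.log (1 - κ * ∑ x, W x / (∑ x, W x) *
        ∫ θ, Real.cos (θ * h x ω) ∂ρ) := by
      refine Real.measurable_log.comp (measurable_const.sub (Measurable.const_mul
        (Finset.measurable_sum _ fun x _ => Measurable.const_mul
          ((si_phi_meas ρ).comp (hh x)) _) _))
    refine Integrable.of_bound hm.aestronglyMeasurable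
      (max |Real.log (1 - κ)| |Real.log (1 + κ)|) (Filter.Eventually.of_forall fun ω => ?_)
    have hS := abs_le.1 (si_S_abs (fun x => W x / ∑ x, W x) (fun x => (div_pos (hW x) hT).le)
      (by rw [← Finset.sum_div]; exact div_self hT.ne') ρ fun x => h x ω)
    set y := ∑ x, W x / (∑ x, W x) * ∫ θ, Real.cos (θ * h x ω) ∂ρ with hy
    have h1 : 1 - κ ≤ 1 - κ * y := by nlinarith [hS.2]
    have h2 : 1 - κ * y ≤ 1 + κ := by nlinarith [hS.1]
    have h3 : Real.log (1 - κ) ≤ Real.log (1 - κ * y) := Real.log_le_log (by linarith) h1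
    have h4 : Real.log (1 - κ * y) ≤ Real.log (1 + κ) := Real.log_le_log (by linarith) h2
    rw [Real.norm_eq_abs, abs_le]
    constructor
    · have := neg_abs_le (Real.log (1 - κ))
      have := le_max_left |Real.log (1 - κ)| |Real.log (1 + κ)|
      linarith
    · have := le_abs_self (Real.log (1 + κ))
      have := le_max_right |Real.log (1 - κ)| |Real.log (1 + κ)|
      linarith

theorem si_dot_meas {n : ℕ} (u : Fin n → ℝ) : Measurable fun g : Fin n → ℝ => dot g u := by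
  unfold dot
  fun_prop

theorem single {X : Type} [Fintype X] [Nonempty X] {n1 n2 : ℕ} {f : ℝ → ℝ} (hf : Good f)
    (u : X → Fin n1 → ℝ) (v : X → Fin n2 → ℝ) (W : X → ℝ) (hW : ∀ x, 0 < W x) {p : ℝ}
    (hp : 0 ≤ p) (hp1 : p ≤ 1) :
    p * ∫ g, Real.log (∑ x, W x * Real.exp (f (dot g (u x)))) ∂(gauss n1) +
    (1 - p) * ∫ g, Real.log (∑ x, W x * Real.exp (f (dot g (v x)))) ∂(gauss n2) ≤
    ∫ G : (Fin n1 → ℝ) × (Fin n2 → ℝ), Real.log (∑ x, W x * Real.exp (f (Real.sqrt p *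
      dot G.1 (u x) + Real.sqrt (1 - p) * dot G.2 (v x)))) ∂((gauss n1).prod (gauss n2)) := by
  obtain ⟨c, κ, ρ, hc, hκ, hκ1, hρ, hf⟩ := hf
  have i1 : IsProbabilityMeasure (gauss n1) := by unfold gauss; infer_instance
  have i2 : IsProbabilityMeasure (gauss n2) := by unfold gauss; infer_instance
  have hT : 0 < ∑ x, W x := Finset.sum_pos (fun x _ => hW x) Finset.univ_nonempty
  have hw0 : ∀ x, 0 ≤ W x / ∑ x, W x := fun x => (div_pos (hW x) hT).le
  have hw1 : ∑ x, W x / ∑ x, W x = 1 := by rw [← Finset.sum_div]; exact div_self hT.ne'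
  have m3 : ∀ x, Measurable fun G : (Fin n1 → ℝ) × (Fin n2 → ℝ) =>
      Real.sqrt p * dot G.1 (u x) + Real.sqrt (1 - p) * dot G.2 (v x) := fun x =>
    (((si_dot_meas (u x)).comp measurable_fst).const_mul _).add
      (((si_dot_meas (v x)).comp measurable_snd).const_mul _)
  rw [si_int (gauss n1) W hW hc hκ hκ1 hf (fun x g => dot g (u x)) fun x => si_dot_meas (u x),
    si_int (gauss n2) W hW hc hκ hκ1 hf (fun x g => dot g (v x)) fun x => si_dot_meas (v x),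
    si_int ((gauss n1).prod (gauss n2)) W hW hc hκ hκ1 hf
      (fun x (G : (Fin n1 → ℝ) × (Fin n2 → ℝ)) =>
        Real.sqrt p * dot G.1 (u x) + Real.sqrt (1 - p) * dot G.2 (v x)) m3]
  have hmeas : ∀ {Ω : Type} [MeasurableSpace Ω] (h : X → Ω → ℝ) (_ : ∀ x, Measurable (h x)),
      Measurable fun ω => ∑ x, W x / (∑ x, W x) * ∫ θ, Real.cos (θ * h x ω) ∂ρ :=
    fun h hh => Finset.measurable_sum _ fun x _ => Measurable.const_mul
      ((si_phi_meas ρ).comp (hh x)) _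
  have h := si_abs (gauss n1) (gauss n2) ((gauss n1).prod (gauss n2))
    (hmeas (fun x g => dot g (u x)) fun x => si_dot_meas (u x))
    (fun g => si_S_abs _ hw0 hw1 ρ fun x => dot g (u x))
    (hmeas (fun x g => dot g (v x)) fun x => si_dot_meas (v x))
    (fun g => si_S_abs _ hw0 hw1 ρ fun x => dot g (v x))
    (hmeas (fun x (G : (Fin n1 → ℝ) × (Fin n2 → ℝ)) =>
        Real.sqrt p * dot G.1 (u x) + Real.sqrt (1 - p) * dot G.2 (v x)) m3)
    (fun G => si_S_abs _ hw0 hw1 ρ fun x =>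
        Real.sqrt p * dot G.1 (u x) + Real.sqrt (1 - p) * dot G.2 (v x))
    hκ hκ1 (p := p) (fun n => pow_convex u v ρ (fun x => W x / ∑ x, W x) hw0 hp hp1 n)
  linarith

end Vale.Agent.Lib.P157
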