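import Vale.Agent.Lib.P157.HDefs
import Vale.Agent.Lib.P157.Reg
import Vale.Agent.Lib.P157.Single
import Vale.Agent.Lib.P157.HybB

/-! P157: replacing a global pattern by a block pattern. -/

open MeasureTheory ProbabilityTheory Filter Topology

namespace Vale.Agent.Lib.P157

theorem hyb_step {X : Type} [Fintype X] [Nonempty X] {n1 n2 : ℕ} {f : ℝ → ℝ} (hf : Good f)
    (u : X → Fin n1 → ℝ) (v : X → Fin n2 → ℝ) {p : ℝ} (hp : 0 ≤ p) (hp1 : p ≤ 1) (m k l : ℕ) :
    p * KK f p u v m (k + 1) l + (1 - p) * KK f p u v m k (l + 1) ≤ KK f p u v (m + 1) k l := by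
  obtain ⟨F, _, hF⟩ := good_bdd hf
  exact hyb_step_b (good_meas hf) hF u v (fun W hW => single hf u v W hW hp hp1) m k l

end Vale.Agent.Lib.P157
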