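import Vale.Agent.Lib.P157.HDefs

/-! P157: the global patterns are the patterns in dimension `N1 + N2`. -/

open MeasureTheory ProbabilityTheory Filter Topology

namespace Vale.Agent.Lib.P157

instance sg_gauss_prob (N : ℕ) : IsProbabilityMeasure (gauss N) := by
  unfold gauss; infer_instance

theorem sg_append_measurable (N1 N2 : ℕ) :
    Measurable (fun g : (Fin N1 → ℝ) × (Fin N2 → ℝ) => Fin.append g.1 g.2) := by
  rw [measurable_pi_iff]
  intro i
  refine Fin.addCases (fun i => ?_) (fun i => ?_) i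
  · simp only [Fin.append_left]
    exact (measurable_pi_apply i).comp measurable_fst
  · simp only [Fin.append_right]
    exact (measurable_pi_apply i).comp measurable_snd

theorem sg_append_preserving (N1 N2 : ℕ) :
    MeasurePreserving (fun g : (Fin N1 → ℝ) × (Fin N2 → ℝ) => Fin.append g.1 g.2)
      ((gauss N1).prod (gauss N2)) (gauss (N1 + N2)) := by
  refine ⟨sg_append_measurable N1 N2, ?_⟩
  symm
  unfold gauss
  apply Measure.pi_eq
  intro s hs
  rw [Measure.map_apply (sg_append_measurable N1 N2) (MeasurableSet.univ_pi hs)]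
  have h1 : (fun g : (Fin N1 → ℝ) × (Fin N2 → ℝ) => Fin.append g.1 g.2) ⁻¹'
      (Set.univ.pi s) = (Set.univ.pi fun i => s (Fin.castAdd N2 i)) ×ˢ
        (Set.univ.pi fun i => s (Fin.natAdd N1 i)) := by
    ext g
    simp only [Set.mem_preimage, Set.mem_pi, Set.mem_univ, true_implies, Set.mem_prod]
    constructor
    · intro h
      exact ⟨fun i => by simpa using h (Fin.castAdd N2 i),
        fun i => by simpa using h (Fin.natAdd N1 i)⟩
    · rintro ⟨h, h'⟩ i
      refine Fin.addCases (fun i => ?_) (fun i => ?_) i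
      · simpa using h i
      · simpa using h' i
  rw [h1, Measure.prod_prod, Measure.pi_pi, Measure.pi_pi, Fin.prod_univ_add]

theorem sg_sqrt_frac {a b : ℝ} (ha : 0 < a) (hb : 0 < b) (x : ℝ) :
    Real.sqrt (a / b) * (x / Real.sqrt a) = x / Real.sqrt b := by
  rw [Real.sqrt_div ha.le]
  have h1 : Real.sqrt a ≠ 0 := (Real.sqrt_pos.2 ha).ne'
  have h2 : Real.sqrt b ≠ 0 := (Real.sqrt_pos.2 hb).ne'
  field_simp

theorem sg_dot_part (N : ℕ) (g : Fin N → ℝ) (σ : Fin N → Bool) (c : ℝ) :
    dot g (fun j => spin σ j / c) = (∑ j, g j * spin σ j) / c := by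
  unfold dot
  rw [Finset.sum_div]
  exact Finset.sum_congr rfl fun j _ => by ring

theorem sg_field_append {N1 N2 : ℕ} (h1 : 0 < N1) (h2 : 0 < N2)
    (G : (Fin N1 → ℝ) × (Fin N2 → ℝ)) (x : (Fin N1 → Bool) × (Fin N2 → Bool)) :
    Real.sqrt ((N1 : ℝ) / (N1 + N2)) * dot G.1 (part1 N1 N2 x) +
      Real.sqrt (1 - (N1 : ℝ) / (N1 + N2)) * dot G.2 (part2 N1 N2 x) =
      field (Fin.append G.1 G.2) (Fin.append x.1 x.2) := by
  have h1' : (0:ℝ) < N1 := by exact_mod_cast h1
  have h2' : (0:ℝ) < N2 := by exact_mod_cast h2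
  have hs : (0:ℝ) < N1 + N2 := by linarith
  have e1 : 1 - (N1 : ℝ) / (N1 + N2) = N2 / (N1 + N2) := by field_simp; ring
  unfold part1 part2
  rw [e1, sg_dot_part, sg_dot_part, sg_sqrt_frac h1' hs, sg_sqrt_frac h2' hs]
  unfold field
  rw [Fin.sum_univ_add, Nat.cast_add, ← add_div]
  congr 2
  · exact Finset.sum_congr rfl fun j _ => by simp [spin, Fin.append_left]
  · exact Finset.sum_congr rfl fun j _ => by simp [spin, Fin.append_right]

theorem KK_global {f : ℝ → ℝ} (hf : Measurable f) {F : ℝ} (hF : ∀ h, |f h| ≤ F) (N1 N2 m : ℕ)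
    (h1 : 0 < N1) (h2 : 0 < N2) :
    KK f ((N1 : ℝ) / (N1 + N2)) (part1 N1 N2) (part2 N1 N2) m 0 0 = aa f m (N1 + N2) := by
  have hP : MeasurePreserving
      (fun (G : Fin m → (Fin N1 → ℝ) × (Fin N2 → ℝ)) (a : Fin m) =>
        (Fin.append (G a).1 (G a).2 : Fin (N1 + N2) → ℝ))
      (Measure.pi fun _ => (gauss N1).prod (gauss N2)) (Measure.pi fun _ => gauss (N1 + N2)) :=
    measurePreserving_pi _ _ fun _ => sg_append_preserving N1 N2
  have hΦ : Measurable (fun g : Fin m → Fin (N1 + N2) → ℝ =>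
      Real.log (∑ σ : Fin (N1 + N2) → Bool, Real.exp (∑ a, f (field (g a) σ)))) := by
    refine Real.measurable_log.comp (Finset.measurable_sum _ fun σ _ =>
      Real.measurable_exp.comp (Finset.measurable_sum _ fun a _ => hf.comp ?_))
    unfold field
    fun_prop
  unfold aa
  rw [← hP.map_eq, integral_map hP.measurable.aemeasurable hΦ.aestronglyMeasurable]
  unfold KK
  refine integral_congr_ae (Filter.Eventually.of_forall fun G => ?_)
  dsimp only
  rw [Measure.pi_of_empty, integral_dirac, Measure.pi_of_empty, integral_dirac]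
  unfold hyb
  congr 1
  rw [← (Fin.appendEquiv N1 N2).sum_comp]
  refine Finset.sum_congr rfl fun x _ => ?_
  congr 1
  rw [Finset.univ_eq_empty (α := Fin 0), Finset.sum_empty, Finset.sum_empty, add_zero, add_zero]
  refine Finset.sum_congr rfl fun a _ => ?_
  rw [sg_field_append h1 h2]
  rfl

end Vale.Agent.Lib.P157
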