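import Vale.Agent.Lib.P157.Reg
import Vale.Agent.Lib.P157.SplitG

/-! P157: without global patterns the hybrid partition function factorizes. -/

open MeasureTheory ProbabilityTheory Filter Topology

namespace Vale.Agent.Lib.P157

theorem sb_hyb {f : ℝ → ℝ} {N1 N2 k l : ℕ} {p : ℝ}
    (G : Fin 0 → (Fin N1 → ℝ) × (Fin N2 → ℝ)) (A : Fin k → Fin N1 → ℝ) (B : Fin l → Fin N2 → ℝ) :
    hyb f p (part1 N1 N2) (part2 N1 N2) G A B = LZ f A + LZ f B := by
  unfold LZ
  rw [← Real.log_mul (sum_pos_exp A).ne' (sum_pos_exp B).ne']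
  unfold hyb
  congr 1
  rw [Finset.sum_mul_sum, ← Finset.univ_product_univ, Finset.sum_product]
  refine Finset.sum_congr rfl fun x _ => Finset.sum_congr rfl fun y _ => ?_
  rw [← Real.exp_add]
  congr 1
  rw [Finset.univ_eq_empty (α := Fin 0), Finset.sum_empty, zero_add]
  congr 1
  · refine Finset.sum_congr rfl fun a _ => ?_
    congr 1
    exact sg_dot_part N1 (A a) x (Real.sqrt N1)
  · refine Finset.sum_congr rfl fun a _ => ?_
    congr 1
    exact sg_dot_part N2 (B a) y (Real.sqrt N2)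

theorem KK_blocks {f : ℝ → ℝ} (hf : Measurable f) {F : ℝ} (hF : ∀ h, |f h| ≤ F) (N1 N2 k l : ℕ)
    (p : ℝ) :
    KK f p (part1 N1 N2) (part2 N1 N2) 0 k l = aa f k N1 + aa f l N2 := by
  have key : ∀ G : Fin 0 → (Fin N1 → ℝ) × (Fin N2 → ℝ), ∫ A : Fin k → Fin N1 → ℝ,
      ∫ B : Fin l → Fin N2 → ℝ, hyb f p (part1 N1 N2) (part2 N1 N2) G A B
        ∂(Measure.pi fun _ => gauss N2) ∂(Measure.pi fun _ => gauss N1) =
      aa f k N1 + aa f l N2 := by
    intro G
    have h1 : ∀ A : Fin k → Fin N1 → ℝ, ∫ B : Fin l → Fin N2 → ℝ,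
        hyb f p (part1 N1 N2) (part2 N1 N2) G A B ∂(Measure.pi fun _ => gauss N2) =
        LZ f A + aa f l N2 := by
      intro A
      simp only [sb_hyb]
      rw [integral_add (integrable_const _) (LZ_int hf hF l N2), aa_eq]
      simp
    simp only [h1]
    rw [integral_add (LZ_int hf hF k N1) (integrable_const _), aa_eq f k N1]
    simp
  unfold KK
  rw [Measure.pi_of_empty, integral_dirac]
  exact key _

end Vale.Agent.Lib.P157
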