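import Vale.Agent.Lib.P157.HDefs
import Vale.Agent.Lib.P157.Reg
import Vale.Agent.Lib.P157.Hyb
import Vale.Agent.Lib.P157.SplitG
import Vale.Agent.Lib.P157.SplitB

/-! P157: superadditivity up to binomial fluctuations and existence of the limit. -/

open MeasureTheory ProbabilityTheory Filter Topology

namespace Vale.Agent.Lib.P157

theorem abs_le_quad (x : ℝ) {t : ℝ} (ht : 0 < t) : |x| ≤ x ^ 2 / (2 * t) + t / 2 := by
  have h1 : x ^ 2 / (2 * t) + t / 2 - |x| = (|x| - t) ^ 2 / (2 * t) := by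
    rw [← sq_abs x]
    field_simp
    ring
  have h2 : 0 ≤ (|x| - t) ^ 2 / (2 * t) := by positivity
  linarith

/-- the binomial fluctuation -/
theorem lower_bound (K : ℕ → ℕ → ℕ → ℝ) {p : ℝ} (hp : 0 ≤ p) (hp1 : p ≤ 1)
    (step : ∀ m k l, p * K m (k + 1) l + (1 - p) * K m k (l + 1) ≤ K (m + 1) k l)
    {D F ks ls t : ℝ} (hF : 0 ≤ F) (ht : 0 < t)
    (base : ∀ k l : ℕ, D - F * (|(k : ℝ) - ks| + |(l : ℝ) - ls|) ≤ K 0 k l) :
    ∀ m k l : ℕ, D - F * ((((k : ℝ) + m * p - ks) ^ 2 + m * (p * (1 - p)) +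
      (((l : ℝ) + m * (1 - p) - ls) ^ 2 + m * (p * (1 - p)))) / (2 * t) + t) ≤ K m k l := by
  intro m
  induction m with
  | zero =>
    intro k l
    refine le_trans ?_ (base k l)
    have h1 := abs_le_quad ((k : ℝ) - ks) ht
    have h2 := abs_le_quad ((l : ℝ) - ls) ht
    have h3 : |(k : ℝ) - ks| + |(l : ℝ) - ls| ≤
        (((k : ℝ) + (0 : ℕ) * p - ks) ^ 2 + (0 : ℕ) * (p * (1 - p)) +
      (((l : ℝ) + (0 : ℕ) * (1 - p) - ls) ^ 2 + (0 : ℕ) * (p * (1 - p)))) / (2 * t) + t := by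
      simp only [Nat.cast_zero, zero_mul, add_zero]
      rw [add_div]
      linarith
    have h4 := mul_le_mul_of_nonneg_left h3 hF
    linarith
  | succ m ih =>
    intro k l
    refine le_trans ?_ (step m k l)
    have h1 := mul_le_mul_of_nonneg_left (ih (k + 1) l) hp
    have h2 := mul_le_mul_of_nonneg_left (ih k (l + 1)) (sub_nonneg.2 hp1)
    refine le_trans (le_of_eq ?_) (add_le_add h1 h2)
    push_cast
    field_simp
    ring

theorem sqrt_gain {a b : ℝ} (ha : 0 ≤ a) (hab : a ≤ b) :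
    Real.sqrt (a + b) ≤ Real.sqrt b + Real.sqrt a / 2 := by
  have hb : 0 ≤ b := ha.trans hab
  rw [Real.sqrt_le_left (by positivity)]
  have h1 := Real.mul_self_sqrt ha
  have h2 := Real.mul_self_sqrt hb
  have h3 := Real.sqrt_le_sqrt hab
  have h4 := Real.sqrt_nonneg a
  nlinarith

theorem aa_lip {f : ℝ → ℝ} (hf : Measurable f) {F : ℝ} (hF0 : 0 ≤ F) (hF : ∀ h, |f h| ≤ F)
    (N : ℕ) : ∀ k k' : ℕ, |aa f k N - aa f k' N| ≤ F * |(k : ℝ) - k'| := by
  have key : ∀ (k d : ℕ), |aa f (k + d) N - aa f k N| ≤ F * d := by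
    intro k d
    induction d with
    | zero => simp
    | succ d ih =>
      have h1 := aa_succ hf hF (k + d) N
      have h2 := abs_sub_le (aa f (k + d + 1) N) (aa f (k + d) N) (aa f k N)
      rw [← add_assoc]
      push_cast
      linarith
  intro k k'
  rcases le_total k k' with h | h
  · obtain ⟨d, rfl⟩ := Nat.exists_eq_add_of_le h
    rw [abs_sub_comm]
    refine (key k d).trans (le_of_eq ?_)
    congr 1
    push_cast
    rw [sub_add_cancel_left, abs_neg, abs_of_nonneg (Nat.cast_nonneg d)]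
  · obtain ⟨d, rfl⟩ := Nat.exists_eq_add_of_le h
    refine (key k' d).trans (le_of_eq ?_)
    congr 1
    push_cast
    rw [add_sub_cancel_left, abs_of_nonneg (Nat.cast_nonneg d)]

theorem superadd {f : ℝ → ℝ} (hf : Good f) {F : ℝ} (hF0 : 0 ≤ F) (hF : ∀ h, |f h| ≤ F) {α : ℝ}
    (hα : 0 < α) {N1 N2 : ℕ} (h1 : 0 < N1) (h2 : 0 < N2) (h12 : N1 ≤ N2) :
    aa f ⌊α * N1⌋₊ N1 + aa f ⌊α * N2⌋₊ N2 - 2 * F * Real.sqrt (1 + α) * Real.sqrt N1 ≤
      aa f ⌊α * (N1 + N2 : ℕ)⌋₊ (N1 + N2) := by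
  have hfm := good_meas hf
  have e1 : (0 : ℝ) < N1 := by exact_mod_cast h1
  have e2 : (0 : ℝ) < N2 := by exact_mod_cast h2
  set N : ℝ := (N1 : ℝ) + N2 with hN
  have hNpos : 0 < N := by positivity
  set p : ℝ := (N1 : ℝ) / N with hp
  have hp0 : 0 ≤ p := by positivity
  have hp1 : p ≤ 1 := by rw [hp, div_le_one hNpos]; linarith
  have hq : 1 - p = (N2 : ℝ) / N := by rw [hp, hN]; field_simp; ring
  set m := ⌊α * (N1 + N2 : ℕ)⌋₊ with hm
  have hmle : (m : ℝ) ≤ α * N := by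
    have := Nat.floor_le (a := α * (N1 + N2 : ℕ)) (by positivity)
    rw [← hm, Nat.cast_add] at this
    exact this
  have hmge : α * N < m + 1 := by
    have := Nat.lt_floor_add_one (α * (N1 + N2 : ℕ))
    rw [← hm, Nat.cast_add] at this
    exact this
  have hm0 : (0 : ℝ) ≤ m := Nat.cast_nonneg m
  have k1 : ((⌊α * N1⌋₊ : ℕ) : ℝ) ≤ α * N1 := Nat.floor_le (by positivity)
  have k2 : α * N1 < (⌊α * N1⌋₊ : ℕ) + 1 := Nat.lt_floor_add_one _
  have l1 : ((⌊α * N2⌋₊ : ℕ) : ℝ) ≤ α * N2 := Nat.floor_le (by positivity)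
  have l2 : α * N2 < (⌊α * N2⌋₊ : ℕ) + 1 := Nat.lt_floor_add_one _
  have mp : (m : ℝ) * p ≤ α * N1 := by
    calc (m : ℝ) * p ≤ α * N * p := by gcongr
      _ = α * N1 := by rw [hp]; field_simp
  have mp' : α * N1 ≤ m * p + 1 := by
    calc α * N1 = α * N * p := by rw [hp]; field_simp
      _ ≤ (m + 1) * p := by gcongr
      _ ≤ m * p + 1 := by nlinarith
  have mq : (m : ℝ) * (1 - p) ≤ α * N2 := by
    rw [hq]
    calc (m : ℝ) * (N2 / N) ≤ α * N * (N2 / N) := by gcongr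
      _ = α * N2 := by field_simp
  have mq' : α * N2 ≤ m * (1 - p) + 1 := by
    have hq1 : (1 : ℝ) - p ≤ 1 := by linarith
    have hq0 : (0 : ℝ) ≤ 1 - p := by linarith
    calc α * N2 = α * N * (1 - p) := by rw [hq]; field_simp
      _ ≤ (m + 1) * (1 - p) := by gcongr
      _ ≤ m * (1 - p) + 1 := by nlinarith
  set V : ℝ := 1 + m * (p * (1 - p)) with hV
  have hV1 : 1 ≤ V := by
    have : 0 ≤ (m : ℝ) * (p * (1 - p)) := by
      have : 0 ≤ 1 - p := by linarith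
      positivity
    linarith
  have hV2 : V ≤ (1 + α) * N1 := by
    have h3 : (m : ℝ) * (p * (1 - p)) ≤ α * N1 := by
      calc (m : ℝ) * (p * (1 - p)) = (m * p) * (1 - p) := by ring
        _ ≤ (α * N1) * (1 - p) := mul_le_mul_of_nonneg_right mp (by linarith)
        _ ≤ (α * N1) * 1 := by
          apply mul_le_mul_of_nonneg_left _ (by positivity)
          linarith
        _ = α * N1 := by ring
    have h4 : (1 : ℝ) ≤ N1 := by exact_mod_cast h1
    nlinarith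
  set t := Real.sqrt V with ht
  have htpos : 0 < t := Real.sqrt_pos.2 (by linarith)
  have htt : t * t = V := Real.mul_self_sqrt (by linarith)
  have hlb := lower_bound
    (fun m k l => KK f p (part1 N1 N2) (part2 N1 N2) m k l) hp0 hp1
    (fun m k l => hyb_step hf (part1 N1 N2) (part2 N1 N2) hp0 hp1 m k l)
    (D := aa f ⌊α * N1⌋₊ N1 + aa f ⌊α * N2⌋₊ N2) (F := F) (ks := (⌊α * N1⌋₊ : ℕ))
    (ls := (⌊α * N2⌋₊ : ℕ)) (t := t) hF0 htpos (by
      intro k l
      rw [KK_blocks hfm hF N1 N2 k l p]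
      have a1 := abs_le.1 (aa_lip hfm hF0 hF N1 k ⌊α * N1⌋₊)
      have a2 := abs_le.1 (aa_lip hfm hF0 hF N2 l ⌊α * N2⌋₊)
      have b1 := a1.1
      have b2 := a2.1
      linarith) m 0 0
  rw [hp, hN, KK_global hfm hF N1 N2 m h1 h2] at hlb
  refine le_trans ?_ hlb
  have hcore : (((0 : ℕ) : ℝ) + m * p - (⌊α * N1⌋₊ : ℕ)) ^ 2 + m * (p * (1 - p)) +
      ((((0 : ℕ) : ℝ) + m * (1 - p) - (⌊α * N2⌋₊ : ℕ)) ^ 2 + m * (p * (1 - p))) ≤ 2 * V := by
    have c1 : (((0 : ℕ) : ℝ) + m * p - (⌊α * N1⌋₊ : ℕ)) ^ 2 ≤ 1 := by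
      rw [sq_le_one_iff_abs_le_one, abs_le]
      push_cast
      constructor <;> linarith
    have c2 : (((0 : ℕ) : ℝ) + m * (1 - p) - (⌊α * N2⌋₊ : ℕ)) ^ 2 ≤ 1 := by
      rw [sq_le_one_iff_abs_le_one, abs_le]
      push_cast
      constructor <;> linarith
    rw [hV]
    linarith
  have hdiv : ((((0 : ℕ) : ℝ) + m * p - (⌊α * N1⌋₊ : ℕ)) ^ 2 + m * (p * (1 - p)) +
      ((((0 : ℕ) : ℝ) + m * (1 - p) - (⌊α * N2⌋₊ : ℕ)) ^ 2 + m * (p * (1 - p)))) / (2 * t) + t ≤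
      2 * t := by
    have : 2 * V / (2 * t) = t := by
      rw [← htt]; field_simp
    have h5 := div_le_div_of_nonneg_right hcore (by positivity : (0 : ℝ) ≤ 2 * t)
    rw [this] at h5
    linarith
  have htle : t ≤ Real.sqrt (1 + α) * Real.sqrt N1 := by
    rw [← Real.sqrt_mul (by linarith)]
    exact Real.sqrt_le_sqrt hV2
  have hfin : F * (((((0 : ℕ) : ℝ) + m * p - (⌊α * N1⌋₊ : ℕ)) ^ 2 + m * (p * (1 - p)) +
      ((((0 : ℕ) : ℝ) + m * (1 - p) - (⌊α * N2⌋₊ : ℕ)) ^ 2 + m * (p * (1 - p)))) / (2 * t) + t) ≤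
      2 * F * Real.sqrt (1 + α) * Real.sqrt N1 := by
    calc _ ≤ F * (2 * t) := mul_le_mul_of_nonneg_left hdiv hF0
      _ ≤ F * (2 * (Real.sqrt (1 + α) * Real.sqrt N1)) := by gcongr
      _ = 2 * F * Real.sqrt (1 + α) * Real.sqrt N1 := by ring
  rw [hp, hN] at hfin
  linarith

theorem main_F {f : ℝ → ℝ} (hf : Good f) {α : ℝ} (hα : 0 < α) {F : ℝ} (hF : ∀ h, |f h| ≤ F) :
    ∃ L, Tendsto (EP α f) atTop (𝓝 L) ∧ ∀ N : ℕ, 0 < N →
      EP α f N ≤ L + 4 * F * Real.sqrt (1 + α) / Real.sqrt N := by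
  have hF0 : 0 ≤ F := (abs_nonneg _).trans (hF 0)
  have hfm := good_meas hf
  set C : ℝ := 2 * F * Real.sqrt (1 + α) with hC
  have hC0 : 0 ≤ C := by positivity
  set s : ℕ → ℝ := fun N => aa f ⌊α * N⌋₊ N - N * Real.log 2 with hs
  set w : ℕ → ℝ := fun N => -s N + 2 * C * Real.sqrt N with hw
  have hs0 : s 0 = 0 := by
    have := aa_bound hfm hF 0 0
    simp only [hs, Nat.cast_zero, mul_zero, Nat.floor_zero, zero_mul, sub_zero] at this ⊢
    exact abs_eq_zero.1 (le_antisymm this (abs_nonneg _))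
  have key : ∀ a b : ℕ, 0 < a → 0 < b → a ≤ b → w (a + b) ≤ w a + w b := by
    intro a b ha hb hab
    have h1 := superadd hf hF0 hF hα ha hb hab
    have h2 := sqrt_gain (a := (a : ℝ)) (b := (b : ℝ)) (Nat.cast_nonneg a)
      (by exact_mod_cast hab)
    simp only [hw, hs]
    rw [Nat.cast_add] at h1 ⊢
    have h3 : 2 * C * Real.sqrt ((a : ℝ) + b) ≤
        2 * C * (Real.sqrt b + Real.sqrt a / 2) := by gcongr
    rw [← hC] at h1
    nlinarith
  have hsub : Subadditive w := by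
    intro a b
    rcases Nat.eq_zero_or_pos a with h0 | ha
    · subst h0
      have : w 0 = 0 := by simp [hw, hs0]
      rw [zero_add, this, zero_add]
    rcases Nat.eq_zero_or_pos b with h0 | hb
    · subst h0
      have : w 0 = 0 := by simp [hw, hs0]
      rw [add_zero, this, add_zero]
    rcases le_total a b with h | h
    · exact key a b ha hb h
    · rw [add_comm a b, add_comm (w a)]
      exact key b a hb ha h
  have hbdd : BddBelow (Set.range fun n => w n / n) := by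
    refine ⟨-(F * α), ?_⟩
    rintro _ ⟨n, rfl⟩
    simp only
    rcases Nat.eq_zero_or_pos n with h0 | hn
    · subst h0
      simp only [Nat.cast_zero, div_zero]
      have := mul_nonneg hF0 hα.le
      linarith
    · have hn' : (0 : ℝ) < n := by exact_mod_cast hn
      rw [le_div_iff₀ hn']
      have h1 := (abs_le.1 (aa_bound hfm hF ⌊α * n⌋₊ n)).2
      have h2 : ((⌊α * n⌋₊ : ℕ) : ℝ) ≤ α * n := Nat.floor_le (by positivity)
      have h3 : F * ((⌊α * n⌋₊ : ℕ) : ℝ) ≤ F * (α * n) := mul_le_mul_of_nonneg_left h2 hF0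
      have h4 : 0 ≤ 2 * C * Real.sqrt n := by positivity
      simp only [hw, hs]
      nlinarith
  have hlim := hsub.tendsto_lim hbdd
  have hsq : Tendsto (fun N : ℕ => 2 * C * (Real.sqrt N)⁻¹) atTop (𝓝 (2 * C * 0)) :=
    (Real.tendsto_sqrt_atTop.comp tendsto_natCast_atTop_atTop).inv_tendsto_atTop.const_mul _
  refine ⟨2 * C * 0 - hsub.lim, (hsq.sub hlim).congr' ?_, ?_⟩
  swap
  · intro N hN
    have hN' : (0 : ℝ) < N := by exact_mod_cast hN
    have h8 := hsub.lim_le_div hbdd hN.ne'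
    have h5 := Real.mul_self_sqrt hN'.le
    have h6 : 0 < Real.sqrt N := Real.sqrt_pos.2 hN'
    have h9 : EP α f N = -(w N / N) + 2 * C / Real.sqrt N := by
      rw [EP_eq hfm hF]
      have h7 : 2 * C / Real.sqrt N = 2 * C * Real.sqrt N / N := by
        rw [div_eq_div_iff h6.ne' hN'.ne', mul_assoc (2 * C), h5]
      rw [h7]
      simp only [hw, hs]
      field_simp
      ring
    rw [h9, mul_zero, zero_sub]
    have h10 : 2 * C / Real.sqrt N = 4 * F * Real.sqrt (1 + α) / Real.sqrt N := by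
      rw [hC]; ring
    rw [h10]
    linarith
  filter_upwards [eventually_gt_atTop 0] with N hN
  have hN' : (0 : ℝ) < N := by exact_mod_cast hN
  rw [EP_eq hfm hF]
  have h5 := Real.mul_self_sqrt hN'.le
  have h6 : 0 < Real.sqrt N := Real.sqrt_pos.2 hN'
  have h7 : (Real.sqrt N)⁻¹ = Real.sqrt N / N := by
    rw [inv_eq_one_div, div_eq_div_iff h6.ne' hN'.ne', one_mul, h5]
  rw [h7]
  simp only [hw, hs]
  field_simp
  ring

theorem main {f : ℝ → ℝ} (hf : Good f) {α : ℝ} (hα : 0 < α) :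
    ∃ L, Tendsto (EP α f) atTop (𝓝 L) ∧ ∀ F : ℝ, (∀ h, |f h| ≤ F) → ∀ N : ℕ, 0 < N →
      EP α f N ≤ L + 4 * F * Real.sqrt (1 + α) / Real.sqrt N := by
  obtain ⟨F0, _, hF0⟩ := good_bdd hf
  obtain ⟨L, hL, -⟩ := main_F hf hα hF0
  refine ⟨L, hL, fun F hF => ?_⟩
  obtain ⟨L', hL', h⟩ := main_F hf hα hF
  rw [tendsto_nhds_unique hL hL']
  exact h

end Vale.Agent.Lib.P157
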